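import Vale.Agent.Lib.P064.Full.Sparsify
import Vale.Agent.Lib.P064.Spread

/-!
# CHAIN + INITIAL (sections 1 and 4 of notes/P064_full.md)
-/

namespace Vale.Agent.P064

open Finset
open scoped Pointwise

section

variable {G X : Type*} [Group G] [Fintype G] [DecidableEq X] [MulAction G X]

theorem exists_maxU (G : Type*) [Group G] [Fintype G] [MulAction G X] (κ : ℝ) (hκ : 0 < κ)
    (V : Finset X) :
    ∃ U : Finset X, U ⊆ V ∧ ∀ S : Finset X,
      (aCount G V S : ℝ) * κ ^ U.card ≤ aCount G V U * κ ^ S.card := by
  obtain ⟨U, hUV, hUmax⟩ := Finset.exists_max_image V.powerset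
    (fun U => (aCount G V U : ℝ) * (κ ^ U.card)⁻¹) ⟨∅, Finset.empty_mem_powerset _⟩
  rw [Finset.mem_powerset] at hUV
  refine ⟨U, hUV, fun S => ?_⟩
  rcases Nat.eq_zero_or_pos (aCount G V S) with hV | hV
  · rw [hV]
    simp only [Nat.cast_zero, zero_mul]
    positivity
  · obtain ⟨g, hg⟩ := Finset.card_pos.1 hV
    simp only [mem_filter, mem_univ, true_and] at hg
    have h1 := hUmax (g • S) (Finset.mem_powerset.2 hg)
    rw [aCount_smul, Finset.card_smul_finset] at h1
    rw [← div_eq_mul_inv, ← div_eq_mul_inv, div_le_div_iff₀ (by positivity) (by positivity)] at h1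
    exact h1

/-- the next set of the chain -/
noncomputable def nxtU (G : Type*) [Group G] [Fintype G] [MulAction G X] (κ : ℝ) (hκ : 0 < κ)
    (V : Finset X) : Finset X := (exists_maxU G κ hκ V).choose

theorem nxtU_subset (κ : ℝ) (hκ : 0 < κ) (V : Finset X) : nxtU G κ hκ V ⊆ V :=
  (exists_maxU G κ hκ V).choose_spec.1

theorem nxtU_key (κ : ℝ) (hκ : 0 < κ) (V : Finset X) (S : Finset X) :
    (aCount G V S : ℝ) * κ ^ (nxtU G κ hκ V).card ≤
      aCount G V (nxtU G κ hκ V) * κ ^ S.card :=
  (exists_maxU G κ hκ V).choose_spec.2 S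

theorem nxtU_card (q : ℝ) (hq : 0 < q) (hκ : 0 < 2 ^ 34 * q) (V : Finset X)
    (hA : ∀ S ⊆ V, ((Finset.univ.filter (fun g : G => g • S = S)).card : ℝ)
      ≤ 2 * Fintype.card G * q ^ S.card) :
    17 * (nxtU G (2 ^ 34 * q) hκ V).card ≤ V.card := by
  set U := nxtU G (2 ^ 34 * q) hκ V with hU
  have hUV : U ⊆ V := nxtU_subset _ _ _
  have hGpos : (0 : ℝ) < Fintype.card G := by exact_mod_cast Fintype.card_pos
  have h1 := nxtU_key (G := G) (2 ^ 34 * q) hκ V ∅
  rw [← hU, aCount_empty] at h1
  simp only [card_empty, pow_zero, mul_one] at h1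
  have h2 : (aCount G V U : ℝ) ≤ 2 ^ V.card * (2 * Fintype.card G * q ^ U.card) := by
    have h3 : (aCount G V U : ℝ) ≤
        2 ^ V.card * ((Finset.univ.filter (fun g : G => g • U = U)).card : ℝ) := by
      exact_mod_cast aCount_le_stab (G := G) V U
    refine h3.trans ?_
    exact mul_le_mul_of_nonneg_left (hA U hUV) (by positivity)
  have h4 : (Fintype.card G : ℝ) * q ^ U.card * (2 ^ 34) ^ U.card ≤
      Fintype.card G * q ^ U.card * 2 ^ (V.card + 1) := by
    calc (Fintype.card G : ℝ) * q ^ U.card * (2 ^ 34) ^ U.card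
        = Fintype.card G * (2 ^ 34 * q) ^ U.card := by rw [mul_pow]; ring
      _ ≤ 2 ^ V.card * (2 * Fintype.card G * q ^ U.card) := h1.trans h2
      _ = Fintype.card G * q ^ U.card * 2 ^ (V.card + 1) := by rw [pow_succ]; ring
  have h5 : ((2 : ℝ) ^ 34) ^ U.card ≤ 2 ^ (V.card + 1) :=
    le_of_mul_le_mul_left h4 (by positivity)
  rw [← pow_mul] at h5
  have h7 : 34 * U.card ≤ V.card + 1 :=
    (pow_le_pow_iff_right₀ (by norm_num : (1 : ℝ) < 2)).1 h5
  omega

/-- the chain -/
noncomputable def chU (G : Type*) [Group G] [Fintype G] [MulAction G X] (κ : ℝ) (hκ : 0 < κ)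
    (H : Finset X) : ℕ → Finset X
  | 0 => H
  | i + 1 => nxtU G κ hκ (chU G κ hκ H i)

theorem chU_subset (κ : ℝ) (hκ : 0 < κ) (H : Finset X) : ∀ i, chU G κ hκ H i ⊆ H
  | 0 => Subset.rfl
  | i + 1 => (nxtU_subset κ hκ _).trans (chU_subset κ hκ H i)

theorem card_contain (V F : Finset X) :
    (Finset.univ.filter (fun g : G => F ⊆ g • V)).card = aCount G V F := by
  unfold aCount
  refine Finset.card_bij' (fun g _ => g⁻¹) (fun g _ => g⁻¹) ?_ ?_ ?_ ?_
  · intro g hg
    simp only [mem_filter, mem_univ, true_and] at hg ⊢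
    have := Finset.smul_finset_subset_smul_finset (a := g⁻¹) hg
    rwa [inv_smul_smul] at this
  · intro g hg
    simp only [mem_filter, mem_univ, true_and] at hg ⊢
    have := Finset.smul_finset_subset_smul_finset (a := g⁻¹) hg
    rwa [inv_smul_smul] at this
  · intro g _; simp
  · intro g _; simp

theorem chain_str (κ : ℝ) (hκ : 0 < κ) (hκ1 : κ ≤ 1) (H : Finset X)
    (hcard : ∀ i, 17 * (chU G κ hκ H (i + 1)).card ≤ (chU G κ hκ H i).card) :
    ∀ (j : ℕ) (g : G), Str (fun A => ∃ g : G, A = g • H) κ j
      (fun i => (chU G κ hκ H i).card - (chU G κ hκ H (i + 1)).card)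
      (g • chU G κ hκ H j) ∅
  | 0, g => ⟨g, rfl⟩
  | j + 1, g₀ => by
    classical
    have IH := chain_str κ hκ hκ1 H hcard j
    set V := chU G κ hκ H j with hV
    have hUdef : chU G κ hκ H (j + 1) = nxtU G κ hκ V := rfl
    set U := chU G κ hκ H (j + 1) with hU
    have hUV : U ⊆ V := by rw [hUdef]; exact nxtU_subset κ hκ V
    have hkey : ∀ S : Finset X, (aCount G V S : ℝ) * κ ^ U.card ≤ aCount G V U * κ ^ S.card := by
      intro S; rw [hUdef]; exact nxtU_key κ hκ V S
    have hc : 17 * U.card ≤ V.card := hcard j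
    set s := V.card - U.card with hs
    rcases Nat.eq_zero_or_pos s with h0 | hpos
    · -- trivial level
      have hV0 : V.card = 0 := by omega
      have hVe : V = ∅ := Finset.card_eq_zero.1 hV0
      refine ⟨1, fun _ => ∅, fun _ => g₀ • V, le_rfl, ?_, ?_, ?_, ?_, ?_⟩
      · intro _; rw [hVe]; simp
      · intro _
        show (∅ : Finset X).card = s
        rw [h0]; simp
      · intro _; exact IH g₀
      · intro S
        show _ ≤ Mc s * _ * _
        rw [h0]
        by_cases hS : S = ∅
        · subst hS; simp [Mc]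
        · have : ¬ (S ⊆ ∅) := fun h => hS (Finset.subset_empty.1 h)
          simp [this, Mc, hκ.le]
      · show _ ≤ _ ^ s
        rw [h0]; simp
    · set A := g₀ • U with hAdef
      have hAcard : A.card = U.card := Finset.card_smul_finset _ _
      set I : Finset G := Finset.univ.filter (fun g : G => A ⊆ g • V) with hI
      set T : G → Finset X := fun g => (g • V) \ A with hT
      have hIcard : I.card = aCount G V U := by
        rw [hI, card_contain, hAdef, aCount_smul]
      have hIne : I.Nonempty := ⟨g₀, by
        simp only [hI, mem_filter, mem_univ, true_and]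
        exact Finset.smul_finset_subset_smul_finset hUV⟩
      have hTcard : ∀ g ∈ I, (T g).card = s := by
        intro g hg
        simp only [hI, mem_filter, mem_univ, true_and] at hg
        show ((g • V) \ A).card = s
        rw [Finset.card_sdiff_of_subset hg, Finset.card_smul_finset, hAcard]
      have hspread : ∀ S : Finset X, ((I.filter (fun g => S ⊆ T g)).card : ℝ) ≤
          1 * I.card * κ ^ S.card := by
        intro S
        by_cases hdis : Disjoint A S
        · have h1 : (I.filter (fun g => S ⊆ T g)).card ≤ aCount G V (A ∪ S) := by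
            rw [← card_contain]
            apply Finset.card_le_card
            intro g hg
            simp only [hI, hT, mem_filter, mem_univ, true_and] at hg ⊢
            exact Finset.union_subset hg.1 (hg.2.trans Finset.sdiff_subset)
          have h2 := hkey (A ∪ S)
          rw [Finset.card_union_of_disjoint hdis, hAcard, pow_add] at h2
          have h3 : (aCount G V (A ∪ S) : ℝ) ≤ aCount G V U * κ ^ S.card := by
            have hp : 0 < κ ^ U.card := by positivity
            have h4 : (aCount G V (A ∪ S) : ℝ) * κ ^ U.card ≤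
                (aCount G V U * κ ^ S.card) * κ ^ U.card := by
              calc _ ≤ _ := h2
                _ = _ := by ring
            exact le_of_mul_le_mul_right h4 hp
          rw [hIcard, one_mul]
          refine le_trans ?_ h3
          exact_mod_cast h1
        · have h1 : I.filter (fun g => S ⊆ T g) = ∅ := by
            ext g
            simp only [mem_filter, notMem_empty, iff_false, not_and]
            intro _ h
            apply hdis
            rw [Finset.disjoint_left]
            intro x hx hx'
            exact (Finset.mem_sdiff.1 (h hx')).2 hx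
          rw [h1]
          simp only [card_empty, Nat.cast_zero]
          positivity
      obtain ⟨n, f, hn, hf, hnle, hsp⟩ := sparsify I hIne T s hpos hTcard 1 κ le_rfl hκ hκ1
        (fun S => by convert hspread S)
      refine ⟨n, fun i => T (f i), fun i => (f i) • V, hn, ?_, ?_, ?_, ?_, hnle⟩
      · intro i x hx
        simp only [mem_sdiff, mem_union, notMem_empty, or_false] at hx
        show x ∈ (f i • V) \ A
        exact Finset.mem_sdiff.2 hx
      · intro i; exact hTcard _ (hf i)
      · intro i; exact IH (f i)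
      · intro S
        have hsp' := hsp S
        refine le_trans (by convert hsp') ?_
        have hs0 : (0 : ℝ) < s := by exact_mod_cast hpos
        have h8 : 1 * (1 + 1 / (8 * (s : ℝ))) ≤ Mc s := by
          unfold Mc
          have : 1 / (8 * (s : ℝ)) ≤ 1 / (s : ℝ) := by
            apply one_div_le_one_div_of_le hs0
            linarith
          linarith
        show _ ≤ Mc s * _ * _
        gcongr

end

theorem chain_initial {G X : Type*} [Group G] [Fintype G] [DecidableEq X] [MulAction G X]
    (q : ℝ) (hq : 0 < q) (hκ : 2 ^ 34 * q ≤ 1) (H : Finset X)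
    (hA : ∀ S ⊆ H, ((Finset.univ.filter (fun g : G => g • S = S)).card : ℝ)
      ≤ 2 * Fintype.card G * q ^ S.card) :
    ∃ (m : ℕ) (d : ℕ → ℕ), (∀ i, 16 * d (i + 1) ≤ d i) ∧ d 0 ≤ H.card ∧
      Str (fun A => ∃ g : G, A = g • H) (2 ^ 34 * q) m d ∅ ∅ := by
  have hκ0 : 0 < 2 ^ 34 * q := by positivity
  set V := chU G (2 ^ 34 * q) hκ0 H with hV
  have hcard : ∀ i, 17 * (V (i + 1)).card ≤ (V i).card := by
    intro i
    exact nxtU_card (G := G) q hq hκ0 (V i)
      (fun S hS => hA S (hS.trans (chU_subset _ _ H i)))
  have hdec : ∀ i, (V i).card ≤ H.card - i := by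
    intro i
    induction i with
    | zero => simp [hV, chU]
    | succ i ih =>
      have := hcard i
      omega
  have hend : V H.card = ∅ := by
    have := hdec H.card
    rw [Nat.sub_self] at this
    exact Finset.card_eq_zero.1 (Nat.le_zero.1 this)
  refine ⟨H.card, fun i => (V i).card - (V (i + 1)).card, ?_, ?_, ?_⟩
  · intro i
    have h1 := hcard i
    have h2 := hcard (i + 1)
    simp only
    omega
  · simp only
    have : V 0 = H := rfl
    rw [this]; omega
  · have h := chain_str (G := G) (2 ^ 34 * q) hκ0 hκ H hcard H.card 1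
    rw [one_smul] at h
    have h' : chU G (2 ^ 34 * q) hκ0 H H.card = ∅ := hend
    rw [h'] at h
    exact h

end Vale.Agent.P064
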