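import Vale.Agent.Lib.P064.Full.Measure

namespace Vale.Agent.P064

open Finset

variable {X : Type*} [Fintype X] [DecidableEq X]

theorem Mc_le_two (s : ℕ) : Mc s ≤ 2 := by
  unfold Mc
  rcases Nat.eq_zero_or_pos s with h | h
  · subst h; norm_num
  · have h1 : (1 : ℝ) ≤ s := by exact_mod_cast h
    have : 1 / (s : ℝ) ≤ 1 := by
      rw [div_le_one (by linarith)]
      exact h1
    linarith

theorem one_le_Mc (s : ℕ) : 1 ≤ Mc s := by
  unfold Mc
  have : 0 ≤ 1 / (s : ℝ) := by positivity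
  linarith

/-- the good event of one step at one node -/
def Good {n : ℕ} (T : Fin n → Finset X) (G : Fin n → Finset X → Prop) (s : ℕ)
    (W : Finset X) : Prop :=
  ∃ (J : Finset (Fin n)) (T' : Fin n → Finset X) (l : Fin n → Fin n),
    (n : ℝ) * (1 - (1 / 16) ^ s) ≤ J.card ∧
    ∀ i ∈ J, T (l i) \ W ⊆ T' i ∧ T' i ⊆ T i ∧ (T' i).card = s / 2 ∧ G (l i) W

/-- good index -/
def PC {ι : Type*} (T : ι → Finset X) (G : ι → Finset X → Prop) (s : ℕ) (W : Finset X)
    (i : ι) : Prop := ∃ l : ι, T l \ W ⊆ T i ∧ 2 * (T l \ W).card ≤ s ∧ G l W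

open Classical in
theorem core_det {n : ℕ} (T : Fin n → Finset X) (G : Fin n → Finset X → Prop) (s : ℕ)
    (hG : ∀ l W W', W ⊆ W' → G l W → G l W')
    (Bf : Finset X → Finset X)
    (hBf : ∀ Z, (∃ l, T l ⊆ Z ∧ G l Z) → ∃ l, T l ⊆ Z ∧ G l Z ∧ Bf Z = T l)
    (W : Finset X) :
    (n : ℝ) - ((((Finset.univ : Finset (Fin n)).filter (fun i => PA T Bf s W i)).card : ℝ) +
      (((Finset.univ : Finset (Fin n)).filter (fun i => PB T G W i)).card : ℝ)) ≤
    (((Finset.univ : Finset (Fin n)).filter (fun i => PC T G s W i)).card : ℝ) := by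
  set P₁ : Finset (Fin n) := (Finset.univ : Finset (Fin n)).filter (fun i => PA T Bf s W i)
    with hP₁
  set P₂ : Finset (Fin n) := (Finset.univ : Finset (Fin n)).filter (fun i => PB T G W i) with hP₂
  set P₃ : Finset (Fin n) := (Finset.univ : Finset (Fin n)).filter (fun i => PC T G s W i)
    with hP₃
  have hcover : (Finset.univ : Finset (Fin n)) ⊆ (P₁ ∪ P₂) ∪ P₃ := by
    intro i _
    by_cases hi2 : i ∈ P₂
    · exact Finset.mem_union_left _ (Finset.mem_union_right _ hi2)
    by_cases hi3 : i ∈ P₃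
    · exact Finset.mem_union_right _ hi3
    apply Finset.mem_union_left
    apply Finset.mem_union_left
    rw [hP₂, Finset.mem_filter] at hi2
    rw [hP₃, Finset.mem_filter] at hi3
    unfold PB at hi2
    unfold PC at hi3
    push Not at hi2 hi3
    have hi2' := hi2 (Finset.mem_univ _)
    have hi3' := hi3 (Finset.mem_univ _)
    -- the candidates
    have hGi : G i W := hi2' i (by simp)
    obtain ⟨l, hl, hlmin⟩ := Finset.exists_min_image
      ((Finset.univ : Finset (Fin n)).filter (fun l => T l \ W ⊆ T i ∧ G l W))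
      (fun l => (T l \ W).card) ⟨i, by
        rw [Finset.mem_filter]
        exact ⟨Finset.mem_univ _, Finset.sdiff_subset, hGi⟩⟩
    rw [Finset.mem_filter] at hl
    obtain ⟨-, hl1, hl2⟩ := hl
    have hl3 : s < 2 * (T l \ W).card := by
      by_contra hcon
      exact hi3' l hl1 (by omega) hl2
    rw [hP₁, Finset.mem_filter]
    refine ⟨Finset.mem_univ _, T l \ W, hl3, hl1, ?_⟩
    set Z : Finset X := T l \ W ∪ W with hZ
    have hTZ : T l ⊆ Z := by
      intro x hx
      rw [hZ, Finset.mem_union, Finset.mem_sdiff]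
      by_cases h : x ∈ W
      · exact Or.inr h
      · exact Or.inl ⟨hx, h⟩
    obtain ⟨l₀, h1, h2, h3⟩ := hBf Z ⟨l, hTZ, hG l W Z Finset.subset_union_right hl2⟩
    rw [h3]
    have h4 : T l₀ \ T i ⊆ W := by
      intro x hx
      rw [Finset.mem_sdiff] at hx
      have h5 := h1 hx.1
      rw [hZ, Finset.mem_union] at h5
      rcases h5 with h5 | h5
      · exact absurd (hl1 h5) hx.2
      · exact h5
    have h5 : G l₀ W := hi2' l₀ h4
    have h6 : T l₀ \ W ⊆ T l \ W := by
      intro x hx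
      rw [Finset.mem_sdiff] at hx
      have h7 := h1 hx.1
      rw [hZ, Finset.mem_union] at h7
      rcases h7 with h7 | h7
      · exact h7
      · exact absurd h7 hx.2
    have h7 := hlmin l₀ (Finset.mem_filter.2 ⟨Finset.mem_univ _, h6.trans hl1, h5⟩)
    have h8 : T l₀ \ W = T l \ W := Finset.eq_of_subset_of_card_le h6 h7
    rw [← h8]
    exact Finset.sdiff_subset
  have h1 : n ≤ (P₁.card + P₂.card) + P₃.card := by
    calc n = (Finset.univ : Finset (Fin n)).card := (Finset.card_fin n).symm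
      _ ≤ ((P₁ ∪ P₂) ∪ P₃).card := Finset.card_le_card hcover
      _ ≤ (P₁ ∪ P₂).card + P₃.card := Finset.card_union_le _ _
      _ ≤ _ := Nat.add_le_add_right (Finset.card_union_le _ _) _
  have h2 : (n : ℝ) ≤ (P₁.card + P₂.card) + P₃.card := by exact_mod_cast h1
  linarith

open Classical in
theorem core_step {n : ℕ} (hn : 1 ≤ n) (T : Fin n → Finset X) (G : Fin n → Finset X → Prop)
    (s : ℕ) (hs : 1 ≤ s) (hG : ∀ l W W', W ⊆ W' → G l W → G l W')
    (hT : ∀ i, (T i).card = s) (κ : ℝ) (hκ : 0 < κ) (hp : 2 ^ 18 * κ ≤ 1)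
    (hspread : ∀ S : Finset X, (((Finset.univ : Finset (Fin n)).filter
      (fun i => S ⊆ T i)).card : ℝ) ≤ Mc s * n * κ ^ S.card)
    (hnle : (n : ℝ) ≤ (2 ^ 18 / κ) ^ s)
    (hx : ∀ l, ex (2 ^ 18 * κ) (fun W => if G l W then (0 : ℝ) else 1) ≤ (1 / 16) ^ (16 * s)) :
    ex (2 ^ 18 * κ) (fun W => if Good T G s W then (0 : ℝ) else 1) ≤ (1 / 16) ^ s := by
  set p : ℝ := 2 ^ 18 * κ with hpdef
  have hp0 : 0 < p := by positivity
  have hnR : (1 : ℝ) ≤ n := by exact_mod_cast hn
  have hMc2 := Mc_le_two s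
  have hMc1 := one_le_Mc s
  set Bf : Finset X → Finset X := fun Z =>
    if h : ∃ l, T l ⊆ Z ∧ G l Z then T (Classical.choose h) else ∅ with hBfdef
  have hBf : ∀ Z, (∃ l, T l ⊆ Z ∧ G l Z) → ∃ l, T l ⊆ Z ∧ G l Z ∧ Bf Z = T l := by
    intro Z hZ
    refine ⟨Classical.choose hZ, (Classical.choose_spec hZ).1, (Classical.choose_spec hZ).2, ?_⟩
    simp only [hBfdef, dif_pos hZ]
  have hBfc : ∀ Z, (Bf Z).card ≤ s := by
    intro Z
    simp only [hBfdef]
    split_ifs with h
    · exact (hT _).le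
    · simp
  have hA := key_a T Bf s hBfc (Mc s * n) κ (by positivity) hκ hp hspread
  have hB := key_b T G s hG hT (Mc s * n) p κ ((1 / 16) ^ (16 * s)) hp0.le hp hx (by positivity)
    hspread
  rw [← hpdef] at hA
  set fA : Finset X → ℝ := fun W => (((Finset.univ : Finset (Fin n)).filter
    (fun i => PA T Bf s W i)).card : ℝ) with hfA
  set fB : Finset X → ℝ := fun W => (((Finset.univ : Finset (Fin n)).filter
    (fun i => PB T G W i)).card : ℝ) with hfB
  rw [Fintype.card_fin] at hB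
  -- constants
  have hB' : ex p fB ≤ n * (2 * (1 / 2 ^ 27) ^ s) := by
    refine hB.trans ?_
    have h1 : (n : ℝ) * (κ + p) ^ s ≤ (2 ^ 37) ^ s := by
      calc (n : ℝ) * (κ + p) ^ s ≤ (2 ^ 18 / κ) ^ s * (κ + p) ^ s :=
            mul_le_mul_of_nonneg_right hnle (by positivity)
        _ = ((2 ^ 18 / κ) * (κ + p)) ^ s := (mul_pow _ _ _).symm
        _ = (2 ^ 18 * (1 + 2 ^ 18)) ^ s := by
            congr 1
            rw [hpdef]
            field_simp
        _ ≤ (2 ^ 37) ^ s := by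
            apply pow_le_pow_left₀ (by positivity)
            norm_num
    have h2 : (2 ^ 37 : ℝ) ^ s * (1 / 16) ^ (16 * s) = (1 / 2 ^ 27) ^ s := by
      rw [pow_mul, ← mul_pow]
      norm_num
    calc (n : ℝ) * (Mc s * n * (κ + p) ^ s) * (1 / 16) ^ (16 * s)
        = n * (Mc s * ((n * (κ + p) ^ s) * (1 / 16) ^ (16 * s))) := by ring
      _ ≤ n * (2 * ((2 ^ 37) ^ s * (1 / 16) ^ (16 * s))) := by
          apply mul_le_mul_of_nonneg_left _ (by positivity)
          apply mul_le_mul hMc2 _ (by positivity) (by norm_num)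
          exact mul_le_mul_of_nonneg_right h1 (by positivity)
      _ = _ := by rw [h2]
  have hA' : ex p fA ≤ n * ((1 / 256) ^ s / 256) := by
    refine hA.trans ?_
    calc Mc s * n * (1 / 256) ^ s / 512 ≤ 2 * n * (1 / 256) ^ s / 512 := by
          apply div_le_div_of_nonneg_right _ (by norm_num)
          apply mul_le_mul_of_nonneg_right _ (by positivity)
          apply mul_le_mul_of_nonneg_right hMc2 (by positivity)
      _ = _ := by ring
  have hsum : ex p fA + ex p fB ≤ n * (1 / 256) ^ s := by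
    have h1 : (2 : ℝ) * (1 / 2 ^ 27) ^ s ≤ (1 / 256) ^ s / 2 := by
      have h2 : (1 / 2 ^ 27 : ℝ) ^ s = (1 / 256) ^ s * (1 / 2 ^ 19) ^ s := by
        rw [← mul_pow]; norm_num
      have h3 : (1 / 2 ^ 19 : ℝ) ^ s ≤ 1 / 2 ^ 19 := by
        calc (1 / 2 ^ 19 : ℝ) ^ s ≤ (1 / 2 ^ 19) ^ 1 :=
              pow_le_pow_of_le_one (by norm_num) (by norm_num) hs
          _ = _ := pow_one _
      have h4 : (0 : ℝ) < (1 / 256) ^ s := by positivity
      rw [h2]
      nlinarith
    have h4 : (0 : ℝ) < (1 / 256) ^ s := by positivity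
    have h5 : (2 : ℝ) * (1 / 2 ^ 27) ^ s + (1 / 256) ^ s / 256 ≤ (1 / 256) ^ s := by linarith
    calc ex p fA + ex p fB ≤ n * ((1 / 256) ^ s / 256) + n * (2 * (1 / 2 ^ 27) ^ s) :=
          add_le_add hA' hB'
      _ = n * (2 * (1 / 2 ^ 27) ^ s + (1 / 256) ^ s / 256) := by ring
      _ ≤ _ := mul_le_mul_of_nonneg_left h5 (by positivity)
  -- Markov
  have hmarkov : ∀ W : Finset X, (if Good T G s W then (0 : ℝ) else 1) ≤
      ((n : ℝ) * (1 / 16) ^ s)⁻¹ * (fA W + fB W) := by
    intro W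
    have hfA0 : 0 ≤ fA W := by simp only [hfA]; positivity
    have hfB0 : 0 ≤ fB W := by simp only [hfB]; positivity
    by_cases hgood : Good T G s W
    · rw [if_pos hgood]
      positivity
    · rw [if_neg hgood]
      rw [inv_mul_eq_div, le_div_iff₀ (by positivity), one_mul]
      by_contra hcon
      push Not at hcon
      apply hgood
      have hdet := core_det T G s hG Bf hBf W
      set J : Finset (Fin n) := (Finset.univ : Finset (Fin n)).filter (fun i => PC T G s W i)
        with hJ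
      have hdet' : (n : ℝ) - (fA W + fB W) ≤ J.card := hdet
      have hch : ∀ i : Fin n, ∃ (T' : Finset X) (l : Fin n), i ∈ J →
          (T l \ W ⊆ T' ∧ T' ⊆ T i ∧ T'.card = s / 2 ∧ G l W) := by
        intro i
        by_cases hi : i ∈ J
        · have hi' := hi
          rw [hJ, Finset.mem_filter] at hi'
          obtain ⟨-, l, h1, h2, h3⟩ := hi'
          obtain ⟨T', h4, h5, h6⟩ := Finset.exists_subsuperset_card_eq (n := s / 2) h1
            (by omega) (by rw [hT i]; omega)
          exact ⟨T', l, fun _ => ⟨h4, h5, h6, h3⟩⟩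
        · exact ⟨∅, i, fun h => absurd h hi⟩
      choose T' l hT'l using hch
      refine ⟨J, T', l, ?_, fun i hi => hT'l i hi⟩
      have : (n : ℝ) * (1 - (1 / 16) ^ s) = n - n * (1 / 16) ^ s := by ring
      rw [this]
      linarith
  refine (ex_mono hp0.le hp hmarkov).trans ?_
  rw [ex_const_mul, ex_add, inv_mul_eq_div, div_le_iff₀ (by positivity)]
  refine hsum.trans (le_of_eq ?_)
  have : (1 / 256 : ℝ) ^ s = (1 / 16) ^ s * (1 / 16) ^ s := by
    rw [← mul_pow]; norm_num
  rw [this]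
  ring

end Vale.Agent.P064
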