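import Vale.Agent.Lib.P064.FKNP

/-!
The recursive structures used in the proof of the second Kahn-Kalai conjecture.
-/

namespace Vale.Agent.P064

open Finset

/-- The spread constant `M(s) = 1 + 1/s` (and `M(0) = 1`). -/
noncomputable def Mc (s : ℕ) : ℝ := 1 + 1 / (s : ℝ)

open Classical in
/-- `Str leaf κ j t A W`: a tower of `j` spread families of fragments, see `notes/P064_full.md`. -/
def Str {X : Type*} (leaf : Finset X → Prop) (κ : ℝ) :
    ℕ → (ℕ → ℕ) → Finset X → Finset X → Prop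
  | 0, _, A, _ => leaf A
  | j + 1, t, A, W => ∃ (n : ℕ) (T B : Fin n → Finset X), 1 ≤ n ∧
      (∀ i, B i \ (A ∪ W) ⊆ T i) ∧ (∀ i, (T i).card = t j) ∧
      (∀ i, Str leaf κ j t (B i) W) ∧
      (∀ S : Finset X, (((Finset.univ : Finset (Fin n)).filter (fun i => S ⊆ T i)).card : ℝ) ≤
        Mc (t j) * n * κ ^ S.card) ∧
      (n : ℝ) ≤ (2 ^ 18 / κ) ^ (t j)

end Vale.Agent.P064
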