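import Vale.Agent.Lib.P064.Full.OneStep

namespace Vale.Agent.P064

open Finset

variable {X : Type*} [Fintype X] [DecidableEq X]

omit [DecidableEq X] in
theorem ex_le_one {p : ℝ} (h0 : 0 ≤ p) (h1 : p ≤ 1) {f : Finset X → ℝ} (h : ∀ W, f W ≤ 1) :
    ex p f ≤ 1 := by
  have := ex_mono (X := X) h0 h1 (f := f) (g := fun _ => 1) h
  rwa [ex_one] at this

theorem all_zero (t : ℕ → ℕ) (ht : ∀ i, 16 * t (i + 1) ≤ t i) (h0 : t 0 = 0) :
    ∀ i, t i = 0 := by
  intro i
  induction i with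
  | zero => exact h0
  | succ i ih =>
    have := ht i
    omega

open Classical in
theorem iterate_aux (leaf : Finset X → Prop) (κ : ℝ) (hκ : 0 < κ) (hp : 2 ^ 18 * κ ≤ 1) (m : ℕ)
    (R : ℕ) : ∀ (k : ℕ) (t : ℕ → ℕ) (W : Finset X), (∀ i, 16 * t (i + 1) ≤ t i) → t 0 < 2 ^ k →
    Str leaf κ m t ∅ W →
    ex (1 - (1 - 2 ^ 18 * κ) ^ R)
      (fun W' => if ∃ B, leaf B ∧ B ⊆ W ∪ W' then (0 : ℝ) else 1) ≤ 16 ^ k * (1 / 8) ^ R := by
  set p : ℝ := 2 ^ 18 * κ with hpdef
  have hp0 : 0 < p := by positivity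
  have hzero : ∀ (R : ℕ) (t : ℕ → ℕ) (W : Finset X), (∀ i, 16 * t (i + 1) ≤ t i) → t 0 = 0 →
      Str leaf κ m t ∅ W →
      ex (1 - (1 - p) ^ R) (fun W' => if ∃ B, leaf B ∧ B ⊆ W ∪ W' then (0 : ℝ) else 1) = 0 := by
    intro R t W ht h0 hStr
    obtain ⟨B, hB, hBW⟩ := Str_zero leaf κ m t (all_zero t ht h0) ∅ W hStr
    rw [Finset.empty_union] at hBW
    have h1 : ∀ W' : Finset X, (if ∃ B, leaf B ∧ B ⊆ W ∪ W' then (0 : ℝ) else 1) = 0 := by
      intro W'
      rw [if_pos]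
      exact ⟨B, hB, hBW.trans Finset.subset_union_left⟩
    simp only [h1]
    exact ex_const _ 0
  induction R with
  | zero =>
    intro k t W ht hk hStr
    simp only [pow_zero, sub_self, mul_one]
    refine (ex_le_one le_rfl zero_le_one ?_).trans ?_
    · intro W'
      split_ifs <;> norm_num
    · exact one_le_pow₀ (by norm_num)
  | succ R IH =>
    intro k t W ht hk hStr
    rcases Nat.eq_zero_or_pos k with hk0 | hkpos
    · subst hk0
      rw [pow_zero, Nat.lt_one_iff] at hk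
      rw [hzero (R + 1) t W ht hk hStr]
      positivity
    · obtain ⟨k, rfl⟩ := Nat.exists_eq_succ_of_ne_zero hkpos.ne'
      rw [Nat.succ_eq_add_one] at hk ⊢
      set pR : ℝ := 1 - (1 - p) ^ R with hpR
      have hq0 : 0 ≤ 1 - p := by linarith
      have hpR0 : 0 ≤ pR := by
        have : (1 - p) ^ R ≤ 1 := pow_le_one₀ hq0 (by linarith)
        linarith
      have hpR1 : pR ≤ 1 := by
        have : 0 ≤ (1 - p) ^ R := pow_nonneg hq0 _
        linarith
      have hptot : 1 - (1 - p) ^ (R + 1) = 1 - (1 - p) * (1 - pR) := by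
        rw [hpR, pow_succ]
        ring
      rw [hptot, ← ex_union]
      have hpt : ∀ W₁ : Finset X, ex pR (fun W₂ =>
          if ∃ B, leaf B ∧ B ⊆ W ∪ (W₁ ∪ W₂) then (0 : ℝ) else 1) ≤
          16 ^ k * (1 / 8) ^ R + (16 ^ (k + 1) * (1 / 8) ^ R) *
            (if Str leaf κ m (fun i => t i / 2) ∅ (W ∪ W₁) then (0 : ℝ) else 1) := by
        intro W₁
        simp only [← Finset.union_assoc]
        by_cases h : Str leaf κ m (fun i => t i / 2) ∅ (W ∪ W₁)
        · rw [if_pos h, mul_zero, add_zero]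
          apply IH k (fun i => t i / 2) (W ∪ W₁) _ _ h
          · intro i
            have := ht i
            omega
          · rw [pow_succ] at hk
            omega
        · rw [if_neg h, mul_one]
          have := IH (k + 1) t (W ∪ W₁) ht hk (Str_mono leaf κ m t ∅ _ _
            Finset.subset_union_left hStr)
          have h2 : (0 : ℝ) ≤ 16 ^ k * (1 / 8) ^ R := by positivity
          linarith
      refine (ex_mono hp0.le hp hpt).trans ?_
      rw [ex_add, ex_const, ex_const_mul]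
      have h3 := (one_step leaf κ hκ hp m t ht ∅ W hStr).trans (xx_le m t)
      have h4 : (0 : ℝ) < 16 ^ (k + 1) * (1 / 8) ^ R := by positivity
      have h5 := mul_le_mul_of_nonneg_left h3 h4.le
      refine (add_le_add le_rfl h5).trans (le_of_eq ?_)
      rw [pow_succ, pow_succ]
      ring

open Classical in
theorem iterate (leaf : Finset X → Prop) (κ : ℝ) (hκ : 0 < κ) (hp : 2 ^ 18 * κ ≤ 1)
    (m : ℕ) (d : ℕ → ℕ) (hd : ∀ i, 16 * d (i + 1) ≤ d i) (h0 : Str leaf κ m d ∅ ∅) :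
    ex (1 - (1 - 2 ^ 18 * κ) ^ (2 * Nat.size (d 0)))
      (fun W => if ∃ B, leaf B ∧ B ⊆ W then (0 : ℝ) else 1) ≤ 1 / 4 := by
  rcases Nat.eq_zero_or_pos (d 0) with hz | hpos
  · obtain ⟨B, hB, hBW⟩ := Str_zero leaf κ m d (all_zero d hd hz) ∅ ∅ h0
    rw [Finset.empty_union, Finset.subset_empty] at hBW
    have h1 : ∀ W' : Finset X, (if ∃ B, leaf B ∧ B ⊆ W' then (0 : ℝ) else 1) = 0 := by
      intro W'
      rw [if_pos]
      exact ⟨B, hB, by rw [hBW]; exact Finset.empty_subset _⟩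
    simp only [h1]
    rw [ex_const]
    norm_num
  · have h1 := iterate_aux leaf κ hκ hp m (2 * Nat.size (d 0)) (Nat.size (d 0)) d ∅ hd
      (Nat.lt_size_self _) h0
    simp only [Finset.empty_union] at h1
    refine h1.trans ?_
    have h2 : 1 ≤ Nat.size (d 0) := Nat.size_pos.2 hpos
    calc (16 : ℝ) ^ Nat.size (d 0) * (1 / 8) ^ (2 * Nat.size (d 0))
        = (1 / 4) ^ Nat.size (d 0) := by
          rw [pow_mul, ← mul_pow]; norm_num
      _ ≤ (1 / 4) ^ 1 := pow_le_pow_of_le_one (by norm_num) (by norm_num) h2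
      _ = 1 / 4 := pow_one _

end Vale.Agent.P064
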