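import Vale.Agent.Lib.P064.Full.Iterate
import Vale.Agent.Lib.P064.Full.Chain
import Vale.Agent.Lib.P064.Main

namespace Vale.Agent.P064

open Finset SimpleGraph
open scoped Pointwise

open Classical in
/-- the second Kahn-Kalai conjecture for a fixed admissible `q`. -/
theorem pc_le_of_mem {n : ℕ} {V : Type*} [Fintype V] (H : SimpleGraph V) (φ : V ↪ Fin n) (q : ℝ)
    (hqpos : 0 < q) (hq : ∀ F : H.Subgraph, 1 / 2 ≤ expCopies n q F.coe)
    (hp : 2 ^ 18 * (2 ^ 34 * q) ≤ 1) :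
    pc n H ≤ (2 * Nat.size (edges (H.map φ)).card : ℕ) * (2 ^ 18 * (2 ^ 34 * q)) := by
  set E₀ := edges (H.map φ) with hE₀
  have hA : ∀ S ⊆ E₀, ((Finset.univ.filter
      (fun g : Equiv.Perm (Fin n) => g • S = S)).card : ℝ) ≤
      2 * Fintype.card (Equiv.Perm (Fin n)) * q ^ S.card := by
    intro S hS
    refine le_trans (card_filter_mono_of _ _ _ _ _ _ (fun i hi hi' => ⟨hi, hi'⟩))
      (stab_le H φ q hq S hS)
  obtain ⟨m, d, hd, hd0, hStr⟩ := chain_initial (G := Equiv.Perm (Fin n)) q hqpos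
    (by linarith) E₀ hA
  have hit := iterate (X := Edge n) _ (2 ^ 34 * q) (by positivity) hp m d hd hStr
  set p₀ : ℝ := 2 ^ 18 * (2 ^ 34 * q) with hp₀
  have hp₀0 : 0 < p₀ := by positivity
  set R := 2 * Nat.size (d 0) with hR
  set p : ℝ := 1 - (1 - p₀) ^ R with hpdef
  have h1 : 0 ≤ 1 - p₀ := by linarith
  have hp0 : 0 ≤ p := by
    have : (1 - p₀) ^ R ≤ 1 := pow_le_one₀ h1 (by linarith)
    linarith
  have hp1 : p ≤ 1 := by
    have : 0 ≤ (1 - p₀) ^ R := pow_nonneg h1 _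
    linarith
  have hple : p ≤ R * p₀ := by
    have := one_add_mul_le_pow (a := -p₀) (by linarith) R
    rw [← sub_eq_add_neg] at this
    linarith
  have hRle : R ≤ 2 * Nat.size E₀.card := Nat.mul_le_mul_left 2 (Nat.size_le_size hd0)
  have hRleR : (R : ℝ) ≤ (2 * Nat.size E₀.card : ℕ) := by exact_mod_cast hRle
  refine le_trans ?_ (hple.trans (mul_le_mul_of_nonneg_right hRleR hp₀0.le))
  unfold pc
  apply csInf_le ⟨0, fun x hx => hx.1⟩
  refine ⟨hp0, hp1, ?_⟩
  refine le_trans ?_ (probContains_ge H φ hp0 hp1)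
  have h2 : ex p (fun W : Finset (Edge n) =>
      if ∀ g ∈ (Finset.univ : Finset (Equiv.Perm (Fin n))), ¬ g • edges (H.map φ) ⊆ W then
        (1 : ℝ) else 0) ≤ 1 / 4 := by
    refine le_trans ?_ hit
    apply ex_mono hp0 hp1
    intro W
    by_cases h : ∃ B, (∃ g : Equiv.Perm (Fin n), B = g • E₀) ∧ B ⊆ W
    · rw [if_pos h, if_neg]
      obtain ⟨B, ⟨g, rfl⟩, hB⟩ := h
      intro hall
      exact hall g (Finset.mem_univ _) hB
    · rw [if_neg h]
      split_ifs <;> norm_num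
  refine le_trans ?_ (sub_le_sub_left (le_trans (le_of_eq ?_) h2) 1)
  · norm_num
  · congr 1

theorem main_full {n : ℕ} {V : Type*} [Fintype V] (H : SimpleGraph V) (hn : 2 ≤ n)
    (hV : Fintype.card V ≤ n) (hH : H ≠ ⊥) :
    pc n H ≤ 2 ^ 56 * pE n H * Real.log n := by
  classical
  obtain ⟨φ⟩ : Nonempty (V ↪ Fin n) := by
    apply Function.Embedding.nonempty_of_card_le
    rwa [Fintype.card_fin]
  set E₀ := edges (H.map φ) with hE₀
  have hE₀pos : 0 < E₀.card := by
    rw [hE₀, card_edges_map, Set.ncard_pos]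
    exact edgeSet_nonempty.2 hH
  have hE₀le : E₀.card ≤ n.choose 2 := by
    rw [← card_Edge]
    exact Finset.card_le_univ _
  have hlog : 0 < Real.log n := Real.log_pos (by exact_mod_cast hn)
  set s : ℝ := ((Nat.size E₀.card : ℕ) : ℝ) with hs
  have hs1 : 1 ≤ s := by
    rw [hs]
    exact_mod_cast Nat.size_pos.2 hE₀pos
  have hslog : s ≤ 6 * Real.log n := size_le_log hn hE₀le
  have hbound : ∀ q ∈ {p : ℝ | 0 ≤ p ∧ p ≤ 1 ∧
      ∀ F : H.Subgraph, 1 / 2 ≤ expCopies n p F.coe}, pc n H ≤ 2 ^ 56 * q * Real.log n := by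
    rintro q ⟨hq0, hq1, hq⟩
    have hA := fun (S : Finset (Edge n)) (hS : S ⊆ E₀) => stab_le H φ q hq S hS
    have hqpos : 0 < q := by
      rcases hq0.lt_or_eq with h | h
      · exact h
      · exfalso
        have h1 := hA E₀ (Finset.Subset.refl _)
        rw [← h, zero_pow hE₀pos.ne', mul_zero] at h1
        have h2 : (0 : ℝ) < ((Finset.univ.filter
            (fun g : Equiv.Perm (Fin n) => g • E₀ = E₀)).card : ℝ) := by
          exact_mod_cast Finset.card_pos.2 ⟨1, by simp⟩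
        linarith
    have h1 : pc n H ≤ 2 * s * (2 ^ 18 * (2 ^ 34 * q)) := by
      rcases le_total (2 ^ 18 * (2 ^ 34 * q)) 1 with h | h
      · refine (pc_le_of_mem H φ q hqpos hq h).trans (le_of_eq ?_)
        rw [← hE₀, hs]
        push_cast
        ring
      · refine (pc_le_one H φ).trans ?_
        nlinarith
    refine h1.trans ?_
    have h2 : 0 < q * Real.log n := by positivity
    nlinarith
  have hne : {p : ℝ | 0 ≤ p ∧ p ≤ 1 ∧
      ∀ F : H.Subgraph, 1 / 2 ≤ expCopies n p F.coe}.Nonempty := ⟨1, one_mem_pE H φ⟩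
  have h1 : pc n H / (2 ^ 56 * Real.log n) ≤ pE n H := by
    unfold pE
    apply le_csInf hne
    intro q hq
    rw [div_le_iff₀ (by positivity)]
    have := hbound q hq
    linarith
  rw [div_le_iff₀ (by positivity)] at h1
  linarith

end Vale.Agent.P064
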