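import Vale.Agent.Lib.P064.Full.Defs

namespace Vale.Agent.P064

open Finset

variable {X : Type*} [Fintype X] [DecidableEq X]

omit [DecidableEq X] in
theorem ex_nonneg {p : ℝ} (h0 : 0 ≤ p) (h1 : p ≤ 1) {f : Finset X → ℝ} (h : ∀ W, 0 ≤ f W) :
    0 ≤ ex p f := by
  rw [← ex_const (X := X) p 0]
  exact ex_mono h0 h1 h

omit [DecidableEq X] in
theorem ex_sum {ι : Type*} (p : ℝ) (J : Finset ι) (f : ι → Finset X → ℝ) :
    ex p (fun W => ∑ i ∈ J, f i W) = ∑ i ∈ J, ex p (f i) := by
  unfold ex
  rw [Finset.sum_comm]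
  apply Finset.sum_congr rfl
  intro W _
  rw [Finset.mul_sum]

theorem ex_union_left (p : ℝ) (D : Finset X) (f : Finset X → ℝ) :
    p ^ D.card * ex p (fun W => f (D ∪ W)) = ex p (fun W => if D ⊆ W then f W else 0) := by
  have h1 : ex p (fun W₂ => f (D ∪ W₂)) =
      ∑ Z : Finset X, if D ⊆ Z then
        (p ^ (Z.card - D.card) * (1 - p) ^ (Fintype.card X - Z.card)) * f Z else 0 := by
    unfold ex
    rw [← Finset.sum_fiberwise (s := (Finset.univ : Finset (Finset X)))
      (g := fun W₂ => D ∪ W₂)]
    apply Finset.sum_congr rfl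
    intro Z _
    split_ifs with h
    · rw [← sum_union_fiber p D Z h, Finset.sum_mul]
      apply Finset.sum_congr rfl
      intro W₂ hW₂
      beta_reduce
      rw [(Finset.mem_filter.1 hW₂).2]
    · apply Finset.sum_eq_zero
      intro W₂ hW₂
      exfalso
      apply h
      rw [← (Finset.mem_filter.1 hW₂).2]
      exact Finset.subset_union_left
  rw [h1, Finset.mul_sum]
  unfold ex
  apply Finset.sum_congr rfl
  intro Z _
  beta_reduce
  by_cases h : D ⊆ Z
  · rw [if_pos h, if_pos h]
    have h2 := Finset.card_le_card h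
    have h3 : p ^ Z.card = p ^ D.card * p ^ (Z.card - D.card) := by
      rw [← pow_add]
      congr 1
      omega
    rw [h3]
    ring
  · rw [if_neg h, if_neg h, mul_zero, mul_zero]

theorem ex_superset_antitone {p : ℝ} (h0 : 0 ≤ p) (h1 : p ≤ 1) (D : Finset X)
    (f : Finset X → ℝ) (hf : ∀ W, f (D ∪ W) ≤ f W) :
    ex p (fun W => if D ⊆ W then f W else 0) ≤ p ^ D.card * ex p f := by
  rw [← ex_union_left]
  apply mul_le_mul_of_nonneg_left _ (by positivity)
  exact ex_mono h0 h1 hf

/-- bad event (ii-a) -/
def PA {ι : Type*} (T : ι → Finset X) (Bf : Finset X → Finset X) (t : ℕ) (W : Finset X)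
    (i : ι) : Prop := ∃ D : Finset X, t < 2 * D.card ∧ D ⊆ T i ∧ D ⊆ Bf (D ∪ W)

/-- bad event (ii-b) -/
def PB {ι : Type*} (T : ι → Finset X) (G : ι → Finset X → Prop) (W : Finset X)
    (i : ι) : Prop := ∃ l : ι, T l \ T i ⊆ W ∧ ¬ G l W

open Classical in
/-- the encoding bound (ii-a) -/
theorem key_a {ι : Type*} [Fintype ι] (T : ι → Finset X) (Bf : Finset X → Finset X) (t : ℕ)
    (hB : ∀ Z, (Bf Z).card ≤ t) (N κ : ℝ) (hN : 0 ≤ N) (hκ : 0 < κ) (hp : 2 ^ 18 * κ ≤ 1)
    (hspread : ∀ S : Finset X, (((Finset.univ : Finset ι).filter (fun i => S ⊆ T i)).card : ℝ) ≤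
      N * κ ^ S.card) :
    ex (2 ^ 18 * κ) (fun W => (((Finset.univ : Finset ι).filter (fun i => PA T Bf t W i)).card : ℝ)) ≤ N * (1 / 256) ^ t / 512 := by
  set p : ℝ := 2 ^ 18 * κ with hpdef
  have hp0 : 0 < p := by positivity
  have step1 : ∀ W : Finset X, (((Finset.univ : Finset ι).filter (fun i => PA T Bf t W i)).card : ℝ) ≤
      ∑ D : Finset X, if t < 2 * D.card then
        (N * κ ^ D.card) * (if D ⊆ Bf (D ∪ W) then 1 else 0) else 0 := by
    intro W
    have h1 : (((Finset.univ : Finset ι).filter (fun i => PA T Bf t W i)).card : ℝ) ≤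
        ∑ i : ι, ∑ D : Finset X, if t < 2 * D.card ∧ D ⊆ T i ∧ D ⊆ Bf (D ∪ W) then (1 : ℝ)
          else 0 := by
      rw [Finset.card_filter, Nat.cast_sum]
      apply Finset.sum_le_sum
      intro i _
      by_cases h : PA T Bf t W i
      · rw [if_pos h]
        obtain ⟨D, hD⟩ := h
        have h2 : ((1 : ℕ) : ℝ) = (fun D : Finset X =>
            if t < 2 * D.card ∧ D ⊆ T i ∧ D ⊆ Bf (D ∪ W) then (1 : ℝ) else 0) D := by
          beta_reduce
          rw [if_pos hD]
          norm_num
        rw [h2]
        apply Finset.single_le_sum (f := (fun D : Finset X =>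
            if t < 2 * D.card ∧ D ⊆ T i ∧ D ⊆ Bf (D ∪ W) then (1 : ℝ) else 0)) _
            (Finset.mem_univ D)
        intro D' _
        split_ifs <;> norm_num
      · rw [if_neg h]
        rw [Nat.cast_zero]
        apply Finset.sum_nonneg
        intro D _
        split_ifs <;> norm_num
    refine h1.trans ?_
    rw [Finset.sum_comm]
    apply Finset.sum_le_sum
    intro D _
    by_cases h : t < 2 * D.card
    · rw [if_pos h]
      by_cases h' : D ⊆ Bf (D ∪ W)
      · rw [if_pos h', mul_one]
        refine le_trans (le_of_eq ?_) (hspread D)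
        rw [Finset.card_filter, Nat.cast_sum]
        apply Finset.sum_congr rfl
        intro i _
        by_cases h'' : D ⊆ T i
        · simp [h, h', h'']
        · simp [h'']
      · rw [if_neg h', mul_zero]
        apply le_of_eq
        apply Finset.sum_eq_zero
        intro i _
        rw [if_neg]
        exact fun h'' => h' h''.2.2
    · rw [if_neg h]
      apply le_of_eq
      apply Finset.sum_eq_zero
      intro i _
      rw [if_neg]
      exact fun h'' => h h''.1
  have step2 : ∀ D : Finset X, ex p (fun W => if t < 2 * D.card then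
        (N * κ ^ D.card) * (if D ⊆ Bf (D ∪ W) then 1 else 0) else 0) ≤
      ex p (fun Z => if D ⊆ Bf Z then N * (1 / 512) ^ (t + 1) else 0) := by
    intro D
    by_cases h : t < 2 * D.card
    · simp only [h, if_true]
      rw [ex_const_mul]
      have h1 := ex_union_left p D (fun Z => if D ⊆ Bf Z then (1 : ℝ) else 0)
      have hpD : 0 < p ^ D.card := by positivity
      have h2 : ex p (fun W => if D ⊆ Bf (D ∪ W) then (1 : ℝ) else 0) ≤
          (p ^ D.card)⁻¹ * ex p (fun Z => if D ⊆ Bf Z then (1 : ℝ) else 0) := by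
        rw [inv_mul_eq_div, le_div_iff₀ hpD, mul_comm, h1]
        apply ex_mono hp0.le hp
        intro Z
        by_cases h3 : D ⊆ Z
        · rw [if_pos h3]
        · rw [if_neg h3]
          split_ifs <;> norm_num
      have h3 : ex p (fun Z => if D ⊆ Bf Z then N * (1 / 512) ^ (t + 1) else 0) =
          (N * (1 / 512) ^ (t + 1)) * ex p (fun Z => if D ⊆ Bf Z then (1 : ℝ) else 0) := by
        rw [← ex_const_mul]
        congr 1
        funext Z
        split_ifs <;> simp
      rw [h3]
      have h4 : 0 ≤ ex p (fun Z => if D ⊆ Bf Z then (1 : ℝ) else 0) := by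
        apply ex_nonneg hp0.le hp
        intro Z
        split_ifs <;> norm_num
      have h5 : N * κ ^ D.card * (p ^ D.card)⁻¹ ≤ N * (1 / 512) ^ (t + 1) := by
        have h6 : N * κ ^ D.card * (p ^ D.card)⁻¹ = N * (1 / 512) ^ (2 * D.card) := by
          rw [hpdef, mul_pow, pow_mul (1 / 512 : ℝ), one_div, inv_pow, inv_pow]
          have : κ ^ D.card ≠ 0 := by positivity
          field_simp
          norm_num
        rw [h6]
        apply mul_le_mul_of_nonneg_left _ hN
        exact pow_le_pow_of_le_one (by norm_num) (by norm_num) (by omega)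
      calc N * κ ^ D.card * ex p (fun W => if D ⊆ Bf (D ∪ W) then (1 : ℝ) else 0)
          ≤ N * κ ^ D.card * ((p ^ D.card)⁻¹ *
              ex p (fun Z => if D ⊆ Bf Z then (1 : ℝ) else 0)) :=
            mul_le_mul_of_nonneg_left h2 (by positivity)
        _ = (N * κ ^ D.card * (p ^ D.card)⁻¹) *
              ex p (fun Z => if D ⊆ Bf Z then (1 : ℝ) else 0) := by ring
        _ ≤ _ := mul_le_mul_of_nonneg_right h5 h4
    · simp only [h, if_false]
      rw [ex_const]
      apply ex_nonneg hp0.le hp
      intro Z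
      split_ifs
      · positivity
      · exact le_rfl
  calc ex p (fun W => (((Finset.univ : Finset ι).filter (fun i => PA T Bf t W i)).card : ℝ))
      ≤ ex p (fun W => ∑ D : Finset X, if t < 2 * D.card then
        (N * κ ^ D.card) * (if D ⊆ Bf (D ∪ W) then 1 else 0) else 0) := ex_mono hp0.le hp step1
    _ = ∑ D : Finset X, ex p (fun W => if t < 2 * D.card then
        (N * κ ^ D.card) * (if D ⊆ Bf (D ∪ W) then 1 else 0) else 0) := ex_sum p _ _
    _ ≤ ∑ D : Finset X, ex p (fun Z => if D ⊆ Bf Z then N * (1 / 512) ^ (t + 1) else 0) :=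
        Finset.sum_le_sum (fun D _ => step2 D)
    _ = ex p (fun Z => ∑ D : Finset X, if D ⊆ Bf Z then N * (1 / 512) ^ (t + 1) else 0) :=
        (ex_sum p _ _).symm
    _ ≤ ex p (fun _ => N * (1 / 256) ^ t / 512) := by
        apply ex_mono hp0.le hp
        intro Z
        rw [← Finset.sum_filter, Finset.sum_const, nsmul_eq_mul]
        have h2 : ((Finset.univ : Finset (Finset X)).filter (fun S => S ⊆ Bf Z)) =
            (Bf Z).powerset := by
          ext S; simp
        rw [h2, Finset.card_powerset]
        have h3 : ((2 ^ (Bf Z).card : ℕ) : ℝ) ≤ 2 ^ t := by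
          push_cast
          exact pow_le_pow_right₀ (by norm_num) (hB Z)
        calc ((2 ^ (Bf Z).card : ℕ) : ℝ) * (N * (1 / 512) ^ (t + 1)) ≤
              2 ^ t * (N * (1 / 512) ^ (t + 1)) := mul_le_mul_of_nonneg_right h3 (by positivity)
          _ = N * ((2 * (1 / 512)) ^ t) / 512 := by
              rw [mul_pow, pow_succ (1 / 512 : ℝ) t]; ring
          _ = N * (1 / 256) ^ t / 512 := by
              norm_num
    _ = N * (1 / 256) ^ t / 512 := ex_const p _

open Classical in
/-- the union bound (ii-b) -/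
theorem key_b {ι : Type*} [Fintype ι] (T : ι → Finset X) (G : ι → Finset X → Prop) (t : ℕ)
    (hG : ∀ l W W', W ⊆ W' → G l W → G l W')
    (hT : ∀ i, (T i).card = t) (N p κ x : ℝ) (hp0 : 0 ≤ p)
    (hp : p ≤ 1) (hx : ∀ l, ex p (fun W => if G l W then (0 : ℝ) else 1) ≤ x) (hx0 : 0 ≤ x)
    (hspread : ∀ S : Finset X, (((Finset.univ : Finset ι).filter (fun i => S ⊆ T i)).card : ℝ) ≤
      N * κ ^ S.card) :
    ex p (fun W => (((Finset.univ : Finset ι).filter (fun i => PB T G W i)).card : ℝ)) ≤ Fintype.card ι * (N * (κ + p) ^ t) * x := by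
  have step1 : ∀ W : Finset X, (((Finset.univ : Finset ι).filter (fun i => PB T G W i)).card : ℝ) ≤
      ∑ l : ι, ∑ i : ι, if T l \ T i ⊆ W then (if G l W then (0 : ℝ) else 1) else 0 := by
    intro W
    rw [Finset.sum_comm, Finset.card_filter, Nat.cast_sum]
    apply Finset.sum_le_sum
    intro i _
    by_cases h : PB T G W i
    · rw [if_pos h]
      obtain ⟨l, hl⟩ := h
      have h2 : ((1 : ℕ) : ℝ) = (fun l : ι =>
          if T l \ T i ⊆ W then (if G l W then (0 : ℝ) else 1) else 0) l := by
        beta_reduce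
        rw [if_pos hl.1, if_neg hl.2]
        norm_num
      rw [h2]
      apply Finset.single_le_sum (f := (fun l : ι =>
          if T l \ T i ⊆ W then (if G l W then (0 : ℝ) else 1) else 0)) _
          (Finset.mem_univ l)
      intro l' _
      split_ifs <;> norm_num
    · rw [if_neg h]
      rw [Nat.cast_zero]
      apply Finset.sum_nonneg
      intro l _
      split_ifs <;> norm_num
  have step2 : ∀ l i : ι, ex p (fun W => if T l \ T i ⊆ W then
      (if G l W then (0 : ℝ) else 1) else 0) ≤ p ^ (T l \ T i).card * x := by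
    intro l i
    refine (ex_superset_antitone hp0 hp (T l \ T i) _ ?_).trans ?_
    · intro W
      by_cases h : G l W
      · rw [if_pos h, if_pos (hG l W _ Finset.subset_union_right h)]
      · rw [if_neg h]
        split_ifs <;> norm_num
    · exact mul_le_mul_of_nonneg_left (hx l) (by positivity)
  have step3 : ∀ l : ι, ∑ i : ι, p ^ (T l \ T i).card ≤ N * (κ + p) ^ t := by
    intro l
    have h1 : ∀ i : ι, p ^ (T l \ T i).card ≤
        ∑ K ∈ (T l).powerset, if K ⊆ T i then p ^ (t - K.card) else 0 := by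
      intro i
      have h2 : T l ∩ T i ∈ (T l).powerset := Finset.mem_powerset.2 Finset.inter_subset_left
      have h3 : p ^ (T l \ T i).card = (fun K : Finset X =>
          if K ⊆ T i then p ^ (t - K.card) else 0) (T l ∩ T i) := by
        beta_reduce
        rw [if_pos Finset.inter_subset_right]
        congr 1
        have := Finset.card_sdiff_add_card_inter (T l) (T i)
        rw [hT l] at this
        omega
      rw [h3]
      apply Finset.single_le_sum (f := (fun K : Finset X =>
          if K ⊆ T i then p ^ (t - K.card) else 0)) _ h2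
      intro K _
      split_ifs
      · positivity
      · exact le_rfl
    refine (Finset.sum_le_sum (fun i _ => h1 i)).trans ?_
    rw [Finset.sum_comm]
    calc ∑ K ∈ (T l).powerset, ∑ i : ι, (if K ⊆ T i then p ^ (t - K.card) else 0)
        ≤ ∑ K ∈ (T l).powerset, N * (κ ^ K.card * p ^ (t - K.card)) := by
          apply Finset.sum_le_sum
          intro K _
          rw [← Finset.sum_filter, Finset.sum_const, nsmul_eq_mul, ← mul_assoc]
          exact mul_le_mul_of_nonneg_right (hspread K) (by positivity)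
      _ = N * (κ + p) ^ t := by
          rw [← Finset.mul_sum, ← hT l, Finset.sum_pow_mul_eq_add_pow]
  calc ex p (fun W => (((Finset.univ : Finset ι).filter (fun i => PB T G W i)).card : ℝ))
      ≤ ex p (fun W => ∑ l : ι, ∑ i : ι, if T l \ T i ⊆ W then
          (if G l W then (0 : ℝ) else 1) else 0) := ex_mono hp0 hp step1
    _ = ∑ l : ι, ∑ i : ι, ex p (fun W => if T l \ T i ⊆ W then
          (if G l W then (0 : ℝ) else 1) else 0) := by
        rw [ex_sum]
        apply Finset.sum_congr rfl
        intro l _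
        rw [ex_sum]
    _ ≤ ∑ l : ι, ∑ i : ι, p ^ (T l \ T i).card * x :=
        Finset.sum_le_sum (fun l _ => Finset.sum_le_sum (fun i _ => step2 l i))
    _ = ∑ l : ι, (∑ i : ι, p ^ (T l \ T i).card) * x := by
        apply Finset.sum_congr rfl
        intro l _
        rw [Finset.sum_mul]
    _ ≤ ∑ _l : ι, (N * (κ + p) ^ t) * x := by
        apply Finset.sum_le_sum
        intro l _
        exact mul_le_mul_of_nonneg_right (step3 l) hx0
    _ = Fintype.card ι * (N * (κ + p) ^ t) * x := by
        rw [Finset.sum_const, nsmul_eq_mul, Finset.card_univ]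
        ring

end Vale.Agent.P064
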