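import Vale.Agent.Lib.P064.Full.Defs

namespace Vale.Agent.P064

open Finset

theorem Str_mono {X : Type*} (leaf : Finset X → Prop) (κ : ℝ) : ∀ (j : ℕ) (t : ℕ → ℕ)
    (A W W' : Finset X), W ⊆ W' → Str leaf κ j t A W → Str leaf κ j t A W'
  | 0, _, _, _, _, _, h => h
  | j + 1, t, A, W, W', hW, h => by
    obtain ⟨n, T, B, hn, h1, h2, h3, h4, h5⟩ := h
    refine ⟨n, T, B, hn, fun i => ?_, h2, fun i => Str_mono leaf κ j t (B i) W W' hW (h3 i),
      h4, h5⟩
    intro x hx
    apply h1 i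
    simp only [mem_sdiff, mem_union] at hx ⊢
    exact ⟨hx.1, fun h' => hx.2 (h'.imp id (fun h'' => hW h''))⟩

/-- if all fragments are empty, then `A ∪ W` contains a leaf. -/
theorem Str_zero {X : Type*} [DecidableEq X] (leaf : Finset X → Prop) (κ : ℝ) : ∀ (j : ℕ)
    (t : ℕ → ℕ) (_ : ∀ i, t i = 0) (A W : Finset X), Str leaf κ j t A W →
    ∃ B, leaf B ∧ B ⊆ A ∪ W
  | 0, _, _, A, W, h => ⟨A, h, Finset.subset_union_left⟩
  | j + 1, t, ht, A, W, h => by
    obtain ⟨n, T, B, hn, h1, h2, h3, h4, h5⟩ := h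
    obtain ⟨B', hB', hB'2⟩ := Str_zero leaf κ j t ht (B ⟨0, hn⟩) W (h3 _)
    refine ⟨B', hB', hB'2.trans ?_⟩
    have h6 := h1 ⟨0, hn⟩
    have h7 := h2 ⟨0, hn⟩
    rw [ht, Finset.card_eq_zero] at h7
    rw [h7] at h6
    intro x hx
    rw [Finset.mem_union] at hx
    rcases hx with hx | hx
    · by_contra hx'
      have : x ∈ (∅ : Finset X) := by
        apply h6
        simp only [mem_sdiff]
        refine ⟨hx, ?_⟩
        intro h8
        apply hx'
        simpa using h8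
      simp at this
    · exact Finset.mem_union_right _ hx

end Vale.Agent.P064
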