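import Vale.Agent.Lib.P064.Full.Defs

/-!
SPARSIFY (section 3 of notes/P064_full.md): a spread family of `s`-sets can be replaced by a spread
family with at most `(2^18/κ)^s` members.
-/

namespace Vale.Agent.P064

open Finset

/-- sum over functions of a product of two one-coordinate functions, one of them centered -/
theorem sum_pi_mul_eq_zero {ι : Type*} (I : Finset ι) (N : ℕ) (g : ι → ℝ)
    (hg : ∑ i ∈ I, g i = 0) {a b : Fin N} (hab : a ≠ b) :
    ∑ ω ∈ Fintype.piFinset (fun _ : Fin N => I), g (ω a) * g (ω b) = 0 := by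
  classical
  have h1 : ∀ ω : Fin N → ι, g (ω a) * g (ω b) =
      ∏ c : Fin N, (if c = a then g (ω c) else if c = b then g (ω c) else 1) := by
    intro ω
    rw [← Finset.mul_prod_erase univ _ (mem_univ a)]
    rw [← Finset.mul_prod_erase (univ.erase a) _ (mem_erase.2 ⟨hab.symm, mem_univ b⟩)]
    rw [Finset.prod_eq_one]
    · simp [hab.symm]
    · intro c hc
      have hcb : c ≠ b := (mem_erase.1 hc).1
      have hca : c ≠ a := (mem_erase.1 (mem_erase.1 hc).2).1
      simp [hca, hcb]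
  rw [Finset.sum_congr rfl (fun ω _ => h1 ω)]
  have h2 := Finset.prod_univ_sum (fun _ : Fin N => I)
    (fun c i => if c = a then g i else if c = b then g i else 1)
  rw [← h2]
  apply Finset.prod_eq_zero (mem_univ a)
  simpa using hg

theorem sum_pi_single {ι : Type*} (I : Finset ι) (N : ℕ) (h : ι → ℝ) (a : Fin N) :
    (I.card : ℝ) * ∑ ω ∈ Fintype.piFinset (fun _ : Fin N => I), h (ω a) =
      (I.card : ℝ) ^ N * ∑ i ∈ I, h i := by
  classical
  have h1 : ∀ ω : Fin N → ι, h (ω a) =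
      ∏ c : Fin N, (if c = a then h (ω c) else 1) := by
    intro ω
    rw [← Finset.mul_prod_erase univ _ (mem_univ a), Finset.prod_eq_one]
    · simp
    · intro c hc
      simp [(mem_erase.1 hc).1]
  rw [Finset.sum_congr rfl (fun ω _ => h1 ω)]
  have h2 := Finset.prod_univ_sum (fun _ : Fin N => I) (fun c i => if c = a then h i else 1)
  rw [← h2, ← Finset.mul_prod_erase univ _ (mem_univ a)]
  have h3 : ∏ c ∈ univ.erase a, ∑ i ∈ I, (if c = a then h i else (1 : ℝ)) =
      (I.card : ℝ) ^ (N - 1) := by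
    rw [Finset.prod_congr rfl (g := fun _ => (I.card : ℝ))]
    · rw [Finset.prod_const, card_erase_of_mem (mem_univ a)]
      simp
    · intro c hc
      simp [(mem_erase.1 hc).1]
  rw [h3]
  have hN : N = (N - 1) + 1 := by
    have := a.pos
    omega
  have h4 : (I.card : ℝ) ^ N = (I.card : ℝ) ^ (N - 1) * I.card := by
    conv_lhs => rw [hN]
    rw [pow_succ]
  rw [h4]
  simp only [if_true]
  ring

/-- the variance bound -/
theorem var_bound {ι : Type*} (I : Finset ι) (hI : I.Nonempty) (N : ℕ) (A : ι → Prop)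
    [DecidablePred A] :
    ∑ ω ∈ Fintype.piFinset (fun _ : Fin N => I),
      (((univ.filter (fun a : Fin N => A (ω a))).card : ℝ) -
        N * ((I.filter A).card / I.card)) ^ 2 ≤
      (I.card : ℝ) ^ N * (N * ((I.filter A).card / I.card)) := by
  classical
  set n : ℝ := (I.card : ℝ) with hn
  have hn0 : 0 < n := by
    rw [hn]; exact_mod_cast hI.card_pos
  set p : ℝ := ((I.filter A).card : ℝ) / n with hp
  have hp0 : 0 ≤ p := by positivity
  have hp1 : p ≤ 1 := by
    rw [hp, div_le_one hn0, hn]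
    exact_mod_cast card_filter_le _ _
  set g : ι → ℝ := fun i => (if A i then (1 : ℝ) else 0) - p with hg
  have hcard : ∑ i ∈ I, (if A i then (1 : ℝ) else 0) = n * p := by
    rw [Finset.sum_boole, hp]
    field_simp
  have hg0 : ∑ i ∈ I, g i = 0 := by
    rw [hg, Finset.sum_sub_distrib, hcard]
    simp [hn]
  have hg2 : ∑ i ∈ I, g i ^ 2 ≤ n * p := by
    have h1 : ∀ i ∈ I, g i ^ 2 = (1 - 2 * p) * (if A i then (1 : ℝ) else 0) + p ^ 2 := by
      intro i _
      simp only [hg]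
      split_ifs <;> ring
    rw [Finset.sum_congr rfl h1, Finset.sum_add_distrib, ← Finset.mul_sum, hcard]
    simp only [sum_const, nsmul_eq_mul, ← hn]
    nlinarith [mul_nonneg hn0.le (mul_nonneg hp0 hp0)]
  have hX : ∀ ω : Fin N → ι, ((univ.filter (fun a : Fin N => A (ω a))).card : ℝ) - N * p =
      ∑ a : Fin N, g (ω a) := by
    intro ω
    simp only [hg]
    rw [Finset.sum_sub_distrib, Finset.sum_boole]
    simp
  have hexp : ∑ ω ∈ Fintype.piFinset (fun _ : Fin N => I),
      (((univ.filter (fun a : Fin N => A (ω a))).card : ℝ) - N * p) ^ 2 =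
      ∑ a : Fin N, ∑ ω ∈ Fintype.piFinset (fun _ : Fin N => I), g (ω a) ^ 2 := by
    have h1 : ∀ ω ∈ Fintype.piFinset (fun _ : Fin N => I),
        (((univ.filter (fun a : Fin N => A (ω a))).card : ℝ) - N * p) ^ 2 =
        ∑ a : Fin N, ∑ b : Fin N, g (ω a) * g (ω b) := by
      intro ω _
      rw [hX ω, sq, Finset.sum_mul_sum]
    rw [Finset.sum_congr rfl h1, Finset.sum_comm]
    apply Finset.sum_congr rfl
    intro a _
    rw [Finset.sum_comm]
    rw [Finset.sum_eq_single a]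
    · apply Finset.sum_congr rfl
      intro ω _
      rw [sq]
    · intro b _ hb
      exact sum_pi_mul_eq_zero I N g hg0 hb.symm
    · intro h
      exact absurd (mem_univ a) h
  rw [hexp]
  have hone : ∀ a : Fin N, ∑ ω ∈ Fintype.piFinset (fun _ : Fin N => I), g (ω a) ^ 2 ≤
      n ^ N * p := by
    intro a
    have h1 := sum_pi_single I N (fun i => g i ^ 2) a
    rw [← hn] at h1
    have h2 : n * ∑ ω ∈ Fintype.piFinset (fun _ : Fin N => I), g (ω a) ^ 2 ≤
        n * (n ^ N * p) := by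
      rw [h1]
      have : n ^ N * ∑ i ∈ I, g i ^ 2 ≤ n ^ N * (n * p) := by
        gcongr
      linarith
    exact le_of_mul_le_mul_left h2 hn0
  calc ∑ a : Fin N, ∑ ω ∈ Fintype.piFinset (fun _ : Fin N => I), g (ω a) ^ 2
      ≤ ∑ _a : Fin N, n ^ N * p := Finset.sum_le_sum (fun a _ => hone a)
    _ = n ^ N * (N * p) := by
        simp only [sum_const, card_univ, Fintype.card_fin, nsmul_eq_mul]
        ring

/-- the elementary pointwise inequality -/
theorem pointwise_bad {x m μ η : ℝ} (hη : 0 < η) (hμ : 0 < μ) (hm : m ≤ μ)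
    (hx : (1 + η) * μ < x) : x ≤ (1 + η) / (η ^ 2 * μ) * (x - m) ^ 2 := by
  have h1 : 0 < x - μ := by nlinarith
  have h2 : (x - μ) ^ 2 ≤ (x - m) ^ 2 := by
    apply pow_le_pow_left₀ h1.le; linarith
  have h3 : x * (η ^ 2 * μ) ≤ (1 + η) * (x - μ) ^ 2 := by
    -- with y = x - μ > η μ :  (y + μ) η² μ ≤ (1+η) y²
    have hy : η * μ ≤ x - μ := by linarith
    have e1 : η ^ 2 * μ * μ ≤ (x - μ) * (x - μ) := by nlinarith [mul_pos hη hμ]
    have e2 : η ^ 2 * μ * (x - μ) ≤ η * ((x - μ) * (x - μ)) := by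
      nlinarith [mul_nonneg (mul_nonneg hη.le h1.le) (sub_nonneg.2 hy)]
    nlinarith
  have h4 : 0 < η ^ 2 * μ := by positivity
  have h5 : x ≤ (1 + η) * (x - μ) ^ 2 / (η ^ 2 * μ) := by
    rw [le_div_iff₀ h4]; exact h3
  calc x ≤ (1 + η) * (x - μ) ^ 2 / (η ^ 2 * μ) := h5
    _ = (1 + η) / (η ^ 2 * μ) * (x - μ) ^ 2 := by ring
    _ ≤ (1 + η) / (η ^ 2 * μ) * (x - m) ^ 2 := by
        apply mul_le_mul_of_nonneg_left h2; positivity

/-- numerical inequality -/
theorem numeric_bad (s : ℕ) (hs : 1 ≤ s) :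
    (544 : ℝ) * s ^ 2 * (32 * s) ≤ (2 ^ 17) ^ s := by
  have h : ∀ k : ℕ, (544 : ℝ) * (k + 1 : ℕ) ^ 2 * (32 * (k + 1 : ℕ)) ≤ (2 ^ 17) ^ (k + 1) := by
    intro k
    induction k with
    | zero => norm_num
    | succ k ih =>
      have e : ((2 : ℝ) ^ 17) ^ (k + 1 + 1) = 2 ^ 17 * (2 ^ 17) ^ (k + 1) := by ring
      rw [e]
      have hk : (0 : ℝ) ≤ k := Nat.cast_nonneg k
      push_cast at ih ⊢
      have h2 : (544 : ℝ) * (k + 1 + 1) ^ 2 * (32 * (k + 1 + 1)) ≤
          2 ^ 17 * (544 * (k + 1) ^ 2 * (32 * (k + 1))) := by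
        have h3 : ((k : ℝ) + 1 + 1) ≤ 2 * (k + 1) := by linarith
        have h4 : ((k : ℝ) + 1 + 1) ^ 3 ≤ (2 * (k + 1)) ^ 3 := by
          apply pow_le_pow_left₀ (by positivity) h3
        nlinarith [pow_nonneg (by positivity : (0:ℝ) ≤ k + 1) 3]
      calc _ ≤ _ := h2
        _ ≤ _ := by
          apply mul_le_mul_of_nonneg_left ih (by positivity)
  obtain ⟨k, rfl⟩ : ∃ k, s = k + 1 := ⟨s - 1, by omega⟩
  exact_mod_cast h k

theorem final_num {s N M κ η μ G : ℝ} {k : ℕ} (hs : 1 ≤ s) (hη : η = 1 / (16 * s)) (hN : 0 < N)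
    (hM : 1 ≤ M) (hκ : 0 < κ) (hμ : μ = N * M * κ ^ k)
    (hG : N * (1 - 1 / (32 * s)) ≤ G) :
    (1 + η) * μ ≤ M * (1 + 1 / (8 * s)) * G * κ ^ k := by
  have hs0 : 0 < s := by linarith
  have h3 : (1 + η) * N ≤ (1 + 1 / (8 * s)) * G := by
    have h4 : (1 + η) * N ≤ (1 + 1 / (8 * s)) * (N * (1 - 1 / (32 * s))) := by
      have h5 : 1 + η ≤ (1 + 1 / (8 * s)) * (1 - 1 / (32 * s)) := by
        have h32 : 1 / (32 * s) ≤ 1 / 32 := by
          apply one_div_le_one_div_of_le (by norm_num); linarith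
        have e1 : η = 2 * (1 / (32 * s)) := by rw [hη]; field_simp; norm_num
        have e2 : 1 / (8 * s) = 4 * (1 / (32 * s)) := by field_simp; norm_num
        have hy0 : 0 < 1 / (32 * s) := by positivity
        rw [e1, e2]
        generalize 1 / (32 * s) = y at *
        nlinarith
      calc (1 + η) * N ≤ ((1 + 1 / (8 * s)) * (1 - 1 / (32 * s))) * N := by
            apply mul_le_mul_of_nonneg_right h5 hN.le
        _ = _ := by ring
    refine h4.trans ?_
    apply mul_le_mul_of_nonneg_left hG; positivity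
  have h6 : (1 + η) * μ = ((1 + η) * N) * (M * κ ^ k) := by
    rw [hμ]; ring
  rw [h6]
  calc ((1 + η) * N) * (M * κ ^ k) ≤ ((1 + 1 / (8 * s)) * G) * (M * κ ^ k) := by
        apply mul_le_mul_of_nonneg_right h3; positivity
    _ = _ := by ring

open Classical in
/-- SPARSIFY (section 3 of notes/P064_full.md) -/
theorem sparsify {X ι : Type*} (I : Finset ι) (hI : I.Nonempty) (T : ι → Finset X) (s : ℕ)
    (hs : 1 ≤ s) (hT : ∀ i ∈ I, (T i).card = s) (M κ : ℝ) (hM : 1 ≤ M) (hκ : 0 < κ) (hκ1 : κ ≤ 1)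
    (hspread : ∀ S : Finset X, ((I.filter (fun i => S ⊆ T i)).card : ℝ) ≤
      M * I.card * κ ^ S.card) :
    ∃ (n : ℕ) (f : Fin n → ι), 1 ≤ n ∧ (∀ a, f a ∈ I) ∧ (n : ℝ) ≤ (2 ^ 18 / κ) ^ s ∧
      ∀ S : Finset X, (((Finset.univ : Finset (Fin n)).filter (fun a => S ⊆ T (f a))).card : ℝ) ≤
        M * (1 + 1 / (8 * s)) * n * κ ^ S.card := by
  have hs0 : (0 : ℝ) < s := by exact_mod_cast hs
  have hs1 : (1 : ℝ) ≤ s := by exact_mod_cast hs
  set x : ℝ := (2 ^ 18 / κ) ^ s with hx
  set N : ℕ := ⌊x⌋₊ with hN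
  have hx1 : (1 : ℝ) ≤ 2 ^ 18 / κ := by
    rw [le_div_iff₀ hκ]; linarith
  have hx0 : 0 ≤ x := by positivity
  have hNx : (N : ℝ) ≤ x := Nat.floor_le hx0
  have hxN : x - 1 < N := by
    have := Nat.lt_floor_add_one x
    rw [← hN] at this
    linarith
  have hxk : x * κ ^ s = (2 ^ 18) ^ s := by
    rw [hx, div_pow]
    field_simp
  have hC : (2 : ℝ) ≤ (2 ^ 18) ^ s := by
    calc (2 : ℝ) ≤ (2 ^ 18) ^ 1 := by norm_num
      _ ≤ (2 ^ 18) ^ s := pow_le_pow_right₀ (by norm_num) hs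
  have hκs : κ ^ s ≤ 1 := pow_le_one₀ hκ.le hκ1
  have hκs0 : 0 < κ ^ s := by positivity
  have hNk : (2 ^ 18 : ℝ) ^ s / 2 ≤ N * κ ^ s := by
    have h1 : (x - 1) * κ ^ s ≤ N * κ ^ s := by
      apply mul_le_mul_of_nonneg_right hxN.le hκs0.le
    rw [sub_mul, hxk, one_mul] at h1
    generalize ((2 : ℝ) ^ 18) ^ s = C at *
    linarith
  have hN0 : (0 : ℝ) < N := by
    by_contra h
    push Not at h
    have : (N : ℝ) * κ ^ s ≤ 0 := mul_nonpos_of_nonpos_of_nonneg h hκs0.le
    generalize ((2 : ℝ) ^ 18) ^ s = C at *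
    linarith
  have hn0 : (0 : ℝ) < I.card := by exact_mod_cast hI.card_pos
  set η : ℝ := 1 / (16 * s) with hη
  have hη0 : 0 < η := by positivity
  have hη1 : η ≤ 1 / 16 := by
    rw [hη]
    apply one_div_le_one_div_of_le (by norm_num); linarith
  set μ : Finset X → ℝ := fun S => N * M * κ ^ S.card with hμ
  set cnt : (Fin N → ι) → Finset X → ℝ := fun ω S =>
    ((univ.filter (fun a : Fin N => S ⊆ T (ω a))).card : ℝ) with hcnt
  set Ω := Fintype.piFinset (fun _ : Fin N => I) with hΩ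
  have hΩc : (Ω.card : ℝ) = (I.card : ℝ) ^ N := by
    rw [hΩ, Fintype.card_piFinset_const]; push_cast; rfl
  have hΩ0 : 0 < (Ω.card : ℝ) := by rw [hΩc]; positivity
  set U : Finset (Finset X) := I.biUnion (fun i => (T i).powerset) with hU
  have hUs : ∀ S ∈ U, S.card ≤ s := by
    intro S hS
    obtain ⟨i, hi, hSi⟩ := mem_biUnion.1 hS
    rw [← hT i hi]
    exact card_le_card (mem_powerset.1 hSi)
  have hμU : ∀ S ∈ U, (2 ^ 18 : ℝ) ^ s / 2 ≤ μ S := by
    intro S hS
    have h1 : κ ^ s ≤ κ ^ S.card := pow_le_pow_of_le_one hκ.le hκ1 (hUs S hS)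
    calc (2 ^ 18 : ℝ) ^ s / 2 ≤ N * κ ^ s := hNk
      _ ≤ N * κ ^ S.card := by gcongr
      _ ≤ N * M * κ ^ S.card := by
          have : (N : ℝ) * 1 * κ ^ S.card ≤ N * M * κ ^ S.card := by gcongr
          linarith
  -- total badness
  set bad : (Fin N → ι) → Finset (Fin N) := fun ω =>
    univ.filter (fun a => ∃ S, S ⊆ T (ω a) ∧ (1 + η) * μ S < cnt ω S) with hbad
  have hbadle : ∀ ω ∈ Ω, ((bad ω).card : ℝ) ≤
      ∑ S ∈ U, (if (1 + η) * μ S < cnt ω S then cnt ω S else 0) := by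
    intro ω hω
    have hω' : ∀ a, ω a ∈ I := fun a => (Fintype.mem_piFinset.1 hω) a
    have h1 : bad ω ⊆ (U.filter (fun S => (1 + η) * μ S < cnt ω S)).biUnion
        (fun S => univ.filter (fun a : Fin N => S ⊆ T (ω a))) := by
      intro a ha
      obtain ⟨S, hS1, hS2⟩ := (mem_filter.1 ha).2
      apply mem_biUnion.2
      refine ⟨S, mem_filter.2 ⟨?_, hS2⟩, mem_filter.2 ⟨mem_univ _, hS1⟩⟩
      exact mem_biUnion.2 ⟨ω a, hω' a, mem_powerset.2 hS1⟩
    calc ((bad ω).card : ℝ) ≤ (((U.filter (fun S => (1 + η) * μ S < cnt ω S)).biUnion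
        (fun S => univ.filter (fun a : Fin N => S ⊆ T (ω a)))).card : ℝ) := by
          exact_mod_cast card_le_card h1
      _ ≤ ∑ S ∈ U.filter (fun S => (1 + η) * μ S < cnt ω S), cnt ω S := by
          simp only [hcnt]
          exact_mod_cast card_biUnion_le
      _ = _ := by rw [Finset.sum_filter]
  have hp : ∀ S : Finset X, ((I.filter (fun i => S ⊆ T i)).card : ℝ) / I.card ≤
      M * κ ^ S.card := by
    intro S
    rw [div_le_iff₀ hn0]
    have := hspread S
    linarith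
  have hS : ∀ S ∈ U, ∑ ω ∈ Ω, (if (1 + η) * μ S < cnt ω S then cnt ω S else 0) ≤
      (544 * s ^ 2 / (2 ^ 18) ^ s) * ((Ω.card : ℝ) *
        (N * (((I.filter (fun i => S ⊆ T i)).card : ℝ) / I.card))) := by
    intro S hSU
    have hμ0 : 0 < μ S := lt_of_lt_of_le (by positivity) (hμU S hSU)
    set m : ℝ := N * (((I.filter (fun i => S ⊆ T i)).card : ℝ) / I.card) with hm
    have hm0 : 0 ≤ m := by positivity
    have hmμ : m ≤ μ S := by
      simp only [hm, hμ]
      have := hp S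
      calc (N : ℝ) * (((I.filter (fun i => S ⊆ T i)).card : ℝ) / I.card)
          ≤ N * (M * κ ^ S.card) := by gcongr
        _ = _ := by ring
    have h1 : ∑ ω ∈ Ω, (if (1 + η) * μ S < cnt ω S then cnt ω S else 0) ≤
        ∑ ω ∈ Ω, (1 + η) / (η ^ 2 * μ S) * (cnt ω S - m) ^ 2 := by
      apply Finset.sum_le_sum
      intro ω _
      split_ifs with h
      · exact pointwise_bad hη0 hμ0 hmμ h
      · positivity
    have h2 : ∑ ω ∈ Ω, (cnt ω S - m) ^ 2 ≤ (Ω.card : ℝ) * m := by
      have := var_bound I hI N (fun i => S ⊆ T i)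
      rw [hΩc]
      simpa [hm, hcnt] using this
    have h3 : (1 + η) / (η ^ 2 * μ S) ≤ 544 * s ^ 2 / (2 ^ 18) ^ s := by
      have hA : (1 + η) / (η ^ 2 * μ S) ≤ (17 / 16) / (η ^ 2 * ((2 ^ 18 : ℝ) ^ s / 2)) := by
        apply div_le_div₀ (by norm_num) (by linarith) (by positivity)
        apply mul_le_mul_of_nonneg_left (hμU S hSU) (by positivity)
      refine hA.trans (le_of_eq ?_)
      rw [hη]
      field_simp
      norm_num
    calc _ ≤ _ := h1
      _ = (1 + η) / (η ^ 2 * μ S) * ∑ ω ∈ Ω, (cnt ω S - m) ^ 2 := by rw [Finset.mul_sum]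
      _ ≤ (1 + η) / (η ^ 2 * μ S) * ((Ω.card : ℝ) * m) := by
          apply mul_le_mul_of_nonneg_left h2; positivity
      _ ≤ _ := by
          apply mul_le_mul_of_nonneg_right h3; positivity
  have hsumA : ∑ S ∈ U, ((I.filter (fun i => S ⊆ T i)).card : ℝ) = I.card * 2 ^ s := by
    have h1 : ∑ S ∈ U, (I.filter (fun i => S ⊆ T i)).card = ∑ i ∈ I, (U.filter (fun S => S ⊆ T i)).card := by
      simp only [card_filter]
      rw [Finset.sum_comm]
    have h2 : ∀ i ∈ I, (U.filter (fun S => S ⊆ T i)).card = 2 ^ s := by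
      intro i hi
      have : U.filter (fun S => S ⊆ T i) = (T i).powerset := by
        ext S
        simp only [mem_filter, mem_powerset, hU, mem_biUnion]
        constructor
        · rintro ⟨_, h⟩; exact h
        · intro h; exact ⟨⟨i, hi, h⟩, h⟩
      rw [this, card_powerset, hT i hi]
    rw [Finset.sum_congr rfl h2] at h1
    simp only [sum_const, smul_eq_mul] at h1
    exact_mod_cast h1
  have htotal : ∑ ω ∈ Ω, ((bad ω).card : ℝ) ≤ (Ω.card : ℝ) * (N / (32 * s)) := by
    calc ∑ ω ∈ Ω, ((bad ω).card : ℝ)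
        ≤ ∑ ω ∈ Ω, ∑ S ∈ U, (if (1 + η) * μ S < cnt ω S then cnt ω S else 0) :=
          Finset.sum_le_sum hbadle
      _ = ∑ S ∈ U, ∑ ω ∈ Ω, (if (1 + η) * μ S < cnt ω S then cnt ω S else 0) :=
          Finset.sum_comm
      _ ≤ ∑ S ∈ U, (544 * s ^ 2 / (2 ^ 18) ^ s) * ((Ω.card : ℝ) *
        (N * (((I.filter (fun i => S ⊆ T i)).card : ℝ) / I.card))) := Finset.sum_le_sum hS
      _ = (544 * s ^ 2 / (2 ^ 18) ^ s) * ((Ω.card : ℝ) * (N * 2 ^ s)) := by
          have : ∀ S ∈ U, (544 * (s:ℝ) ^ 2 / (2 ^ 18) ^ s) * ((Ω.card : ℝ) *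
            (N * (((I.filter (fun i => S ⊆ T i)).card : ℝ) / I.card))) =
            ((544 * s ^ 2 / (2 ^ 18) ^ s) * ((Ω.card : ℝ) * (N / I.card))) *
              ((I.filter (fun i => S ⊆ T i)).card : ℝ) := by
            intro S _; ring
          rw [Finset.sum_congr rfl this, ← Finset.mul_sum, hsumA]
          field_simp
      _ ≤ (Ω.card : ℝ) * (N / (32 * s)) := by
          have h1 : (544 : ℝ) * s ^ 2 / (2 ^ 18) ^ s * 2 ^ s ≤ 1 / (32 * s) := by
            have e : ((2 : ℝ) ^ 18) ^ s = (2 ^ 17) ^ s * 2 ^ s := by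
              rw [← mul_pow]; norm_num
            rw [e, le_div_iff₀ (by positivity)]
            have := numeric_bad s hs
            have h2 : (544 : ℝ) * s ^ 2 / ((2 ^ 17) ^ s * 2 ^ s) * 2 ^ s * (32 * s) =
                (544 * s ^ 2 * (32 * s)) / (2 ^ 17) ^ s := by
              field_simp
            rw [h2, div_le_one (by positivity)]
            exact this
          calc (544 * (s:ℝ) ^ 2 / (2 ^ 18) ^ s) * ((Ω.card : ℝ) * (N * 2 ^ s))
              = ((544 : ℝ) * s ^ 2 / (2 ^ 18) ^ s * 2 ^ s) * ((Ω.card : ℝ) * N) := by ring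
            _ ≤ (1 / (32 * s)) * ((Ω.card : ℝ) * N) := by
                apply mul_le_mul_of_nonneg_right h1; positivity
            _ = _ := by ring
  obtain ⟨ω, hωΩ, hωbad⟩ : ∃ ω ∈ Ω, ((bad ω).card : ℝ) ≤ N / (32 * s) := by
    by_contra hcon
    push Not at hcon
    have hΩne : Ω.Nonempty := by
      rw [← Finset.card_pos]; exact_mod_cast hΩ0
    have : ∑ ω ∈ Ω, ((N : ℝ) / (32 * s)) < ∑ ω ∈ Ω, ((bad ω).card : ℝ) :=
      Finset.sum_lt_sum_of_nonempty hΩne hcon
    simp only [sum_const, nsmul_eq_mul] at this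
    linarith
  have hω' : ∀ a, ω a ∈ I := fun a => (Fintype.mem_piFinset.1 hωΩ) a
  set good : Finset (Fin N) := univ \ bad ω with hgood
  have hgc : (good.card : ℝ) = N - (bad ω).card := by
    rw [hgood, card_sdiff_of_subset (subset_univ _), Nat.cast_sub (card_le_card (subset_univ _))]
    simp
  have hglow : (N : ℝ) * (1 - 1 / (32 * s)) ≤ good.card := by
    rw [hgc]
    have : (N : ℝ) * (1 - 1 / (32 * s)) = N - N / (32 * s) := by ring
    rw [this]; linarith
  have h32 : 1 / (32 * (s : ℝ)) ≤ 1 / 32 := by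
    apply one_div_le_one_div_of_le (by norm_num); linarith
  have hgpos : 0 < (good.card : ℝ) := lt_of_lt_of_le (by nlinarith) hglow
  refine ⟨good.card, fun a => ω (good.equivFin.symm a).1, ?_, fun a => hω' _, ?_, ?_⟩
  · have : 0 < good.card := by exact_mod_cast hgpos
    omega
  · have h1 : (good.card : ℝ) ≤ N := by
      rw [hgc]
      have : (0 : ℝ) ≤ (bad ω).card := Nat.cast_nonneg _
      linarith
    linarith
  · intro S
    have hle : (((Finset.univ : Finset (Fin good.card)).filter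
        (fun a => S ⊆ T (ω (good.equivFin.symm a).1))).card : ℝ) ≤
        ((good.filter (fun b => S ⊆ T (ω b))).card : ℝ) := by
      have : ((Finset.univ : Finset (Fin good.card)).filter
        (fun a => S ⊆ T (ω (good.equivFin.symm a).1))).card ≤
        (good.filter (fun b => S ⊆ T (ω b))).card := by
        apply Finset.card_le_card_of_injOn (fun a => (good.equivFin.symm a).1)
        · intro a ha
          have ha' := (mem_filter.1 (Finset.mem_coe.1 ha)).2
          exact Finset.mem_coe.2 (mem_filter.2 ⟨(good.equivFin.symm a).2, ha'⟩)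
        · intro a _ b _ hab
          exact good.equivFin.symm.injective (Subtype.ext hab)
      exact_mod_cast this
    by_cases hb : (1 + η) * μ S < cnt ω S
    · have hz : good.filter (fun b => S ⊆ T (ω b)) = ∅ := by
        apply Finset.filter_eq_empty_iff.2
        intro b hbg hSb
        have hnb : b ∉ bad ω := (mem_sdiff.1 hbg).2
        exact hnb (mem_filter.2 ⟨mem_univ _, S, hSb, hb⟩)
      rw [hz] at hle
      simp only [card_empty, Nat.cast_zero] at hle
      refine hle.trans ?_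
      positivity
    · push Not at hb
      have h1 : ((good.filter (fun b => S ⊆ T (ω b))).card : ℝ) ≤ cnt ω S := by
        simp only [hcnt]
        exact_mod_cast card_le_card (filter_subset_filter _ (subset_univ _))
      have h2 : (1 + η) * μ S ≤ M * (1 + 1 / (8 * s)) * good.card * κ ^ S.card := by
        exact final_num hs1 hη hN0 hM hκ rfl hglow
      linarith

end Vale.Agent.P064
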