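import Vale.Agent.Lib.P064.Full.Core
import Vale.Agent.Lib.P064.Full.Mono
import Vale.Agent.Lib.P064.Full.Sparsify

namespace Vale.Agent.P064

open Finset

variable {X : Type*} [Fintype X] [DecidableEq X]

omit [Fintype X] [DecidableEq X] in
theorem card_filter_mono_of {α : Type*} (s s' : Finset α) (P Q : α → Prop) (dP : DecidablePred P)
    (dQ : DecidablePred Q) (h : ∀ a, a ∈ s → P a → a ∈ s' ∧ Q a) :
    ((@Finset.filter α P dP s).card : ℝ) ≤ ((@Finset.filter α Q dQ s').card : ℝ) := by
  apply Nat.cast_le.2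
  apply Finset.card_le_card
  intro a ha
  have ha' := (@Finset.mem_filter α P dP s a).1 ha
  exact (@Finset.mem_filter α Q dQ s' a).2 (h a ha'.1 ha'.2)

theorem Mc_step (s s' : ℕ) (hs' : 1 ≤ s') (h : 2 * s' ≤ s) :
    Mc s / (1 - (1 / 16) ^ s) * (1 + 1 / (8 * s')) ≤ Mc s' := by
  have hs'R : (1 : ℝ) ≤ s' := by exact_mod_cast hs'
  set u : ℝ := 1 / (s' : ℝ) with hu
  have hu0 : 0 < u := by positivity
  have hu1 : u ≤ 1 := by
    rw [hu, div_le_one (by linarith)]
    exact hs'R
  have h1 : Mc s ≤ 1 + u / 2 := by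
    unfold Mc
    have h2 : (2 * s' : ℝ) ≤ s := by exact_mod_cast h
    have h3 : 1 / (s : ℝ) ≤ 1 / (2 * s') := one_div_le_one_div_of_le (by positivity) h2
    have h4 : 1 / (2 * (s' : ℝ)) = u / 2 := by rw [hu]; field_simp
    linarith
  have h2 : (1 / 16 : ℝ) ^ s ≤ u / 128 := by
    calc (1 / 16 : ℝ) ^ s ≤ (1 / 16) ^ (2 * s') :=
          pow_le_pow_of_le_one (by norm_num) (by norm_num) h
      _ = (1 / 2) ^ s' * (1 / 128) ^ s' := by
          rw [pow_mul, ← mul_pow]; norm_num
      _ ≤ u * (1 / 128) := by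
          apply mul_le_mul _ _ (by positivity) hu0.le
          · rw [hu, one_div_pow]
            apply one_div_le_one_div_of_le (by linarith)
            have := (Nat.lt_two_pow_self (n := s')).le
            exact_mod_cast this
          · calc (1 / 128 : ℝ) ^ s' ≤ (1 / 128) ^ 1 :=
                  pow_le_pow_of_le_one (by norm_num) (by norm_num) hs'
              _ = _ := pow_one _
      _ = u / 128 := by ring
  have h3 : 0 < 1 - (1 / 16 : ℝ) ^ s := by linarith
  have h4 : 1 / (8 * (s' : ℝ)) = u / 8 := by rw [hu]; field_simp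
  rw [h4, div_mul_eq_mul_div, div_le_iff₀ h3]
  have h5 : Mc s' = 1 + u := rfl
  rw [h5]
  calc Mc s * (1 + u / 8) ≤ (1 + u / 2) * (1 + u / 8) :=
        mul_le_mul_of_nonneg_right h1 (by positivity)
    _ ≤ (1 + u) * (1 - u / 128) := by nlinarith
    _ ≤ (1 + u) * (1 - (1 / 16) ^ s) := by
        apply mul_le_mul_of_nonneg_left _ (by positivity)
        linarith

omit [Fintype X] in
open Classical in
theorem good_to_str (leaf : Finset X → Prop) (κ : ℝ) (hκ : 0 < κ) (hp : 2 ^ 18 * κ ≤ 1) (j : ℕ)
    (t : ℕ → ℕ) (A W W' : Finset X) {n : ℕ} (hn : 1 ≤ n) (T B : Fin n → Finset X)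
    (hs : 1 ≤ t j) (hTB : ∀ i, B i \ (A ∪ W) ⊆ T i)
    (hspread : ∀ S : Finset X, (((Finset.univ : Finset (Fin n)).filter
      (fun i => S ⊆ T i)).card : ℝ) ≤ Mc (t j) * n * κ ^ S.card)
    (hgood : Good T (fun l W' => Str leaf κ j (fun i => t i / 2) (B l) (W ∪ W')) (t j) W') :
    Str leaf κ (j + 1) (fun i => t i / 2) A (W ∪ W') := by
  obtain ⟨J, T', l, hJ, h⟩ := hgood
  have hnR : (1 : ℝ) ≤ n := by exact_mod_cast hn
  have hε : (1 / 16 : ℝ) ^ t j ≤ 1 / 16 := by
    calc (1 / 16 : ℝ) ^ t j ≤ (1 / 16) ^ 1 :=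
          pow_le_pow_of_le_one (by norm_num) (by norm_num) hs
      _ = _ := pow_one _
  have hε0 : (0 : ℝ) < (1 / 16 : ℝ) ^ t j := by positivity
  have hpos : 0 < 1 - (1 / 16 : ℝ) ^ t j := by linarith
  have hJpos : (0 : ℝ) < J.card := lt_of_lt_of_le (by positivity) hJ
  have hJne : J.Nonempty := Finset.card_pos.1 (by exact_mod_cast hJpos)
  have hBT : ∀ i ∈ J, B (l i) \ (A ∪ (W ∪ W')) ⊆ T' i := by
    intro i hi x hx
    apply (h i hi).1
    simp only [mem_sdiff, mem_union, not_or] at hx ⊢
    refine ⟨hTB (l i) ?_, hx.2.2.2⟩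
    simp only [mem_sdiff, mem_union, not_or]
    exact ⟨hx.1, hx.2.1, hx.2.2.1⟩
  rcases Nat.eq_zero_or_pos (t j / 2) with hz | hz
  · obtain ⟨i₀, hi₀⟩ := hJne
    have hTi : T' i₀ = ∅ := by
      rw [← Finset.card_eq_zero, (h i₀ hi₀).2.2.1, hz]
    refine ⟨1, fun _ => T' i₀, fun _ => B (l i₀), le_rfl, fun _ => ?_, fun _ => (h i₀ hi₀).2.2.1,
      fun _ => (h i₀ hi₀).2.2.2, fun S => ?_, ?_⟩
    · intro x hx
      apply hBT i₀ hi₀
      simp only [mem_sdiff, mem_union] at hx ⊢
      exact hx
    · have h1 := one_le_Mc (t j / 2)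
      rcases Finset.eq_empty_or_nonempty S with hS | hS
      · subst hS
        simp only [Finset.empty_subset, Finset.filter_true, Finset.card_univ, Fintype.card_fin,
          Nat.cast_one, mul_one, Finset.card_empty, pow_zero]
        exact h1
      · refine le_trans (card_filter_mono_of _ (∅ : Finset (Fin 1)) _ (fun _ => True) _
          (fun _ => instDecidableTrue) ?_) ?_
        · intro i _ h3
          simp only [hTi, Finset.subset_empty] at h3
          exact absurd h3 hS.ne_empty
        · simp only [Finset.filter_empty, Finset.card_empty, Nat.cast_zero]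
          have := one_le_Mc (t j / 2)
          positivity
    · simp [hz]
  · -- sparsify
    set M : ℝ := Mc (t j) / (1 - (1 / 16) ^ t j) with hM
    have hM1 : 1 ≤ M := by
      rw [hM, le_div_iff₀ hpos]
      have := one_le_Mc (t j)
      linarith
    have hκ1 : κ ≤ 1 := by nlinarith
    obtain ⟨n', f, hn', hf, hn'le, hsp'⟩ := sparsify J hJne T' (t j / 2) hz
      (fun i hi => (h i hi).2.2.1) M κ hM1 hκ hκ1 (by
        intro S
        refine le_trans (card_filter_mono_of _ _ _ _ _ _ ?_) ((hspread S).trans ?_)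
        · intro i hi hi'
          exact ⟨Finset.mem_univ _, hi'.trans (h i hi).2.1⟩
        apply mul_le_mul_of_nonneg_right _ (by positivity)
        rw [hM, div_mul_eq_mul_div, le_div_iff₀ hpos, mul_assoc]
        apply mul_le_mul_of_nonneg_left hJ
        linarith [one_le_Mc (t j)])
    refine ⟨n', fun a => T' (f a), fun a => B (l (f a)), hn', fun a => ?_,
      fun a => (h _ (hf a)).2.2.1, fun a => (h _ (hf a)).2.2.2, fun S => ?_, hn'le⟩
    · intro x hx
      apply hBT _ (hf a)
      simp only [mem_sdiff, mem_union] at hx ⊢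
      exact hx
    · refine (hsp' S).trans ?_
      apply mul_le_mul_of_nonneg_right _ (by positivity)
      apply mul_le_mul_of_nonneg_right _ (by positivity)
      exact Mc_step (t j) (t j / 2) hz (by omega)

/-- the failure probability of one step -/
noncomputable def xx : ℕ → (ℕ → ℕ) → ℝ
  | 0, _ => 0
  | j + 1, t => if t j = 0 then xx j t else (1 / 16) ^ (t j)

theorem xx_le_pow (j : ℕ) (t : ℕ → ℕ) (ht : ∀ i, 16 * t (i + 1) ≤ t i) (h1 : 1 ≤ t j) :
    xx j t ≤ (1 / 16) ^ (16 * t j) := by
  cases j with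
  | zero =>
    unfold xx
    positivity
  | succ j =>
    unfold xx
    have h2 := ht j
    rw [if_neg (by omega)]
    exact pow_le_pow_of_le_one (by norm_num) (by norm_num) h2

theorem xx_le : ∀ (j : ℕ) (t : ℕ → ℕ), xx j t ≤ 1 / 16
  | 0, t => by
    unfold xx
    norm_num
  | j + 1, t => by
    unfold xx
    split_ifs with h
    · exact xx_le j t
    · calc (1 / 16 : ℝ) ^ t j ≤ (1 / 16) ^ 1 :=
            pow_le_pow_of_le_one (by norm_num) (by norm_num) (by omega)
        _ = _ := pow_one _

open Classical in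
theorem one_step (leaf : Finset X → Prop) (κ : ℝ) (hκ : 0 < κ) (hp : 2 ^ 18 * κ ≤ 1) :
    ∀ (j : ℕ) (t : ℕ → ℕ), (∀ i, 16 * t (i + 1) ≤ t i) → ∀ (A W : Finset X),
      Str leaf κ j t A W →
      ex (2 ^ 18 * κ) (fun W' => if Str leaf κ j (fun i => t i / 2) A (W ∪ W') then (0 : ℝ) else 1)
        ≤ xx j t := by
  intro j
  have hp0 : (0 : ℝ) ≤ 2 ^ 18 * κ := by positivity
  induction j with
  | zero =>
    intro t ht A W hStr
    have h1 : ∀ W' : Finset X, (if Str leaf κ 0 (fun i => t i / 2) A (W ∪ W') then (0 : ℝ)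
        else 1) = 0 := by
      intro W'
      rw [if_pos]
      exact hStr
    simp only [h1]
    rw [ex_const]
    exact le_rfl
  | succ j IH =>
    intro t ht A W hStr
    obtain ⟨n, T, B, hn, h1, h2, h3, h4, h5⟩ := hStr
    have hTB : ∀ i, B i \ (A ∪ W) ⊆ T i := by
      intro i x hx
      apply h1 i
      simp only [mem_sdiff, mem_union] at hx ⊢
      exact hx
    have h4' : ∀ S : Finset X, (((Finset.univ : Finset (Fin n)).filter
        (fun i => S ⊆ T i)).card : ℝ) ≤ Mc (t j) * n * κ ^ S.card := by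
      intro S
      exact le_trans (card_filter_mono_of _ _ _ _ _ _ (fun i hi hi' => ⟨hi, hi'⟩)) (h4 S)
    rcases Nat.eq_zero_or_pos (t j) with hz | hpos
    · -- trivial level
      have hn1 : n = 1 := by
        rw [hz, pow_zero] at h5
        have : n ≤ 1 := by exact_mod_cast h5
        omega
      subst hn1
      have hxx : xx (j + 1) t = xx j t := by
        show (if t j = 0 then xx j t else (1 / 16) ^ (t j)) = xx j t
        rw [if_pos hz]
      rw [hxx]
      refine le_trans ?_ (IH t ht (B 0) W (h3 0))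
      apply ex_mono hp0 hp
      intro W'
      by_cases hg : Str leaf κ j (fun i => t i / 2) (B 0) (W ∪ W')
      · rw [if_pos hg, if_pos]
        refine ⟨1, T, B, le_rfl, fun i => ?_, fun i => ?_, fun i => ?_, ?_, ?_⟩
        · intro x hx
          apply hTB i
          simp only [mem_sdiff, mem_union, not_or] at hx ⊢
          exact ⟨hx.1, hx.2.1, hx.2.2.1⟩
        · rw [h2 i, hz]
          simp [hz]
        · have hi : i = 0 := Subsingleton.elim _ _
          rw [hi]
          exact hg
        · intro S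
          have := h4 S
          rw [hz] at this
          simp only [hz, Nat.zero_div]
          exact this
        · simp [hz]
      · rw [if_neg hg]
        split_ifs <;> norm_num
    · have hxx : xx (j + 1) t = (1 / 16) ^ (t j) := by
        show (if t j = 0 then xx j t else (1 / 16) ^ (t j)) = _
        rw [if_neg (by omega)]
      rw [hxx]
      have hcore := core_step hn T
        (fun l W' => Str leaf κ j (fun i => t i / 2) (B l) (W ∪ W')) (t j) hpos
        (fun l W₁ W₂ hW hG => Str_mono leaf κ j _ (B l) _ _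
          (Finset.union_subset_union_right hW) hG) h2 κ hκ hp h4' h5
        (fun l => (IH t ht (B l) W (h3 l)).trans (xx_le_pow j t ht hpos))
      refine le_trans ?_ hcore
      apply ex_mono hp0 hp
      intro W'
      by_cases hg : Good T (fun l W' => Str leaf κ j (fun i => t i / 2) (B l) (W ∪ W')) (t j) W'
      · rw [if_pos hg, if_pos]
        exact good_to_str leaf κ hκ hp j t A W W' hn T B hpos hTB h4' hg
      · rw [if_neg hg]
        split_ifs <;> norm_num

end Vale.Agent.P064
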